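import Mathlib

/-!
# AMUC by density, and the l2-sum step (P069), definition independent
-/

open scoped ENNReal NNReal

namespace Vale.Agent.Lib.P069

/-- The quadratic midpoint inequality at `x0` on a closed subspace of finite codimension. -/
def QuadMid {X : Type*} [NormedAddCommGroup X] [NormedSpace ℝ X] (c : ℝ) (x0 : X) : Prop :=
  ∃ F : Submodule ℝ X, IsClosed (F : Set X) ∧ FiniteDimensional ℝ (X ⧸ F) ∧
    ∀ y ∈ F, 2 * ‖x0‖ ^ 2 + c * ‖y‖ ^ 2 ≤ ‖x0 + y‖ ^ 2 + ‖x0 - y‖ ^ 2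

theorem amuc_of_dense {X : Type*} [NormedAddCommGroup X] [NormedSpace ℝ X] {c : ℝ} (hc : 0 < c)
    (S : Set X) (hS : Dense S) (h : ∀ x0 ∈ S, QuadMid c x0) :
    ∀ t : ℝ, 0 < t → ∃ d : ℝ, 0 < d ∧ ∀ x : X, ‖x‖ = 1 → ∃ F : Submodule ℝ X,
      IsClosed (F : Set X) ∧ FiniteDimensional ℝ (X ⧸ F) ∧
      ∀ y ∈ F, ‖y‖ = 1 → 1 + d ≤ max ‖x + t • y‖ ‖x - t • y‖ := by
  intro t ht
  set ε : ℝ := min 1 (c * t ^ 2 / 18) with hε
  have hε0 : 0 < ε := lt_min one_pos (by positivity)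
  have hε1 : ε ≤ 1 := min_le_left _ _
  have hε2 : ε ≤ c * t ^ 2 / 18 := min_le_right _ _
  refine ⟨ε, hε0, fun x hx => ?_⟩
  obtain ⟨x0, hx0, hx0S⟩ := Metric.dense_iff.1 hS x ε hε0
  rw [Metric.mem_ball, dist_eq_norm] at hx0
  obtain ⟨F, hFc, hFd, hF⟩ := h x0 hx0S
  refine ⟨F, hFc, hFd, fun y hy hy1 => ?_⟩
  have h1 := hF (t • y) (F.smul_mem t hy)
  rw [norm_smul, hy1, mul_one, Real.norm_eq_abs, sq_abs] at h1
  set M0 : ℝ := max ‖x0 + t • y‖ ‖x0 - t • y‖ with hM0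
  have hM0nn : 0 ≤ M0 := le_max_of_le_left (norm_nonneg _)
  have ha : ‖x0 + t • y‖ ^ 2 ≤ M0 ^ 2 := pow_le_pow_left₀ (norm_nonneg _) (le_max_left _ _) 2
  have hb : ‖x0 - t • y‖ ^ 2 ≤ M0 ^ 2 := pow_le_pow_left₀ (norm_nonneg _) (le_max_right _ _) 2
  have hx0n : 1 - ε ≤ ‖x0‖ := by
    have := norm_sub_norm_le x x0
    rw [hx] at this
    have h2 : ‖x - x0‖ = ‖x0 - x‖ := norm_sub_rev _ _
    linarith
  have hx0sq : (1 - ε) ^ 2 ≤ ‖x0‖ ^ 2 := pow_le_pow_left₀ (by linarith) hx0n 2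
  have hM0big : 1 + 2 * ε ≤ M0 := by
    by_contra hcon
    push Not at hcon
    have : M0 ^ 2 < (1 + 2 * ε) ^ 2 := pow_lt_pow_left₀ hcon hM0nn (by norm_num)
    nlinarith
  have hp : ‖x0 + t • y‖ ≤ ‖x + t • y‖ + ε := by
    have : x0 + t • y = (x + t • y) + (x0 - x) := by abel
    rw [this]
    exact (norm_add_le _ _).trans (by linarith)
  have hm : ‖x0 - t • y‖ ≤ ‖x - t • y‖ + ε := by
    have : x0 - t • y = (x - t • y) + (x0 - x) := by abel
    rw [this]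
    exact (norm_add_le _ _).trans (by linarith)
  have : M0 ≤ max ‖x + t • y‖ ‖x - t • y‖ + ε := by
    refine max_le ?_ ?_
    · exact hp.trans (by linarith [le_max_left ‖x + t • y‖ ‖x - t • y‖])
    · exact hm.trans (by linarith [le_max_right ‖x + t • y‖ ‖x - t • y‖])
  linarith

section lpsum

variable {ι : Type*} [DecidableEq ι] {E : ι → Type*} [∀ i, NormedAddCommGroup (E i)]
  [∀ i, NormedSpace ℝ (E i)]

omit [DecidableEq ι] [∀ i, NormedSpace ℝ (E i)] in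
theorem lpsum_hasSum_norm_sq (f : lp E 2) : HasSum (fun i => ‖f i‖ ^ 2) (‖f‖ ^ 2) := by
  have h := lp.hasSum_norm (p := 2) (by norm_num) f
  have h2 : (2 : ℝ≥0∞).toReal = ((2 : ℕ) : ℝ) := by norm_num
  rw [h2] at h
  simpa only [Real.rpow_natCast] using h

/-- The l2-sum step. -/
theorem quadMid_lp_two {c : ℝ} (hc2 : c ≤ 2) (s : Finset ι) (x0 : lp E 2)
    (hx0 : ∀ i, i ∉ s → x0 i = 0) (h : ∀ i ∈ s, QuadMid c (x0 i)) : QuadMid c x0 := by
  classical
  have h' : ∀ i : s, QuadMid c (x0 i) := fun i => h i i.2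
  choose F hFc hFd hF using h'
  let L : lp E 2 →ₗ[ℝ] (∀ i : s, E i ⧸ F i) :=
    LinearMap.pi fun i => (F i).mkQ ∘ₗ (lp.evalₗ (𝕜 := ℝ) (E := E) (p := 2) (i : ι))
  have hmem : ∀ y : lp E 2, y ∈ LinearMap.ker L ↔ ∀ i : s, y i ∈ F i := by
    intro y
    rw [LinearMap.mem_ker]
    constructor
    · intro hy i
      have := congrFun hy i
      simpa [L] using this
    · intro hy
      funext i
      simpa [L] using hy i
  refine ⟨LinearMap.ker L, ?_, ?_, ?_⟩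
  · have : ((LinearMap.ker L : Submodule ℝ (lp E 2)) : Set (lp E 2)) =
        ⋂ i : s, (fun y : lp E 2 => y i) ⁻¹' (F i : Set (E i)) := by
      ext y
      simp only [SetLike.mem_coe, hmem, Set.mem_iInter, Set.mem_preimage]
    rw [this]
    refine isClosed_iInter fun i => (hFc i).preimage ?_
    exact (lp.evalCLM (𝕜 := ℝ) (E := E) (p := 2) (i : ι)).continuous
  · have : ∀ i : s, FiniteDimensional ℝ (E i ⧸ F i) := hFd
    exact (LinearMap.quotKerEquivRange L).symm.finiteDimensional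
  · intro y hy
    rw [hmem] at hy
    have hl : HasSum (fun i => 2 * ‖x0 i‖ ^ 2 + c * ‖y i‖ ^ 2) (2 * ‖x0‖ ^ 2 + c * ‖y‖ ^ 2) :=
      ((lpsum_hasSum_norm_sq x0).mul_left 2).add ((lpsum_hasSum_norm_sq y).mul_left c)
    have hr : HasSum (fun i => ‖(x0 + y) i‖ ^ 2 + ‖(x0 - y) i‖ ^ 2)
        (‖x0 + y‖ ^ 2 + ‖x0 - y‖ ^ 2) :=
      (lpsum_hasSum_norm_sq (x0 + y)).add (lpsum_hasSum_norm_sq (x0 - y))
    refine hasSum_le (fun i => ?_) hl hr
    by_cases hi : i ∈ s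
    · simpa using hF ⟨i, hi⟩ (y i) (hy ⟨i, hi⟩)
    · have h0 := hx0 i hi
      simp only [lp.coeFn_add, lp.coeFn_sub, Pi.add_apply, Pi.sub_apply, h0, norm_zero, zero_add,
        zero_sub, norm_neg]
      nlinarith [sq_nonneg ‖y i‖]

omit [∀ i, NormedSpace ℝ (E i)] in
/-- Finitely supported vectors with components in dense sets are dense in the l2-sum. -/
theorem dense_finite_support (S : ∀ i, Set (E i)) (hS : ∀ i, Dense (S i)) :
    Dense {x0 : lp E 2 | ∃ s : Finset ι, (∀ i, i ∉ s → x0 i = 0) ∧ ∀ i ∈ s, x0 i ∈ S i} := by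
  rw [Metric.dense_iff]
  intro x ε hε
  have hsum := lp.hasSum_single (p := 2) (by norm_num) x
  rw [HasSum, Metric.tendsto_nhds] at hsum
  obtain ⟨s, hs⟩ := (hsum (ε / 2) (by positivity)).exists
  have hδ : 0 < ε / (2 * ((s.card : ℝ) + 1)) := by positivity
  choose z hz hzS using fun i => Metric.dense_iff.1 (hS i) (x i) _ hδ
  refine ⟨∑ i ∈ s, lp.single 2 i (z i), ?_, s, ?_, ?_⟩
  · rw [Metric.mem_ball]
    have h1 : dist (∑ i ∈ s, lp.single 2 i (z i)) (∑ i ∈ s, lp.single 2 i (x i : E i)) ≤ ε / 2 := by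
      rw [dist_eq_norm, ← Finset.sum_sub_distrib]
      refine (norm_sum_le _ _).trans ?_
      have h2 : ∀ i ∈ s, ‖lp.single 2 i (z i) - lp.single 2 i (x i : E i)‖ ≤
          ε / (2 * ((s.card : ℝ) + 1)) := by
        intro i _
        rw [← lp.single_sub, lp.norm_single (by norm_num)]
        have := hz i
        rw [Metric.mem_ball, dist_eq_norm] at this
        exact this.le
      refine (Finset.sum_le_sum h2).trans ?_
      rw [Finset.sum_const, nsmul_eq_mul]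
      have hc : (0 : ℝ) ≤ s.card := Nat.cast_nonneg _
      rw [mul_div_assoc', div_le_div_iff₀ (by positivity) (by norm_num)]
      nlinarith
    calc dist (∑ i ∈ s, lp.single 2 i (z i)) x
        ≤ dist (∑ i ∈ s, lp.single 2 i (z i)) (∑ i ∈ s, lp.single 2 i (x i : E i))
          + dist (∑ i ∈ s, lp.single 2 i (x i : E i)) x := dist_triangle _ _ _
      _ < ε / 2 + ε / 2 := add_lt_add_of_le_of_lt h1 hs
      _ = ε := by ring
  · intro i hi
    rw [lp.coeFn_sum, Finset.sum_apply]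
    refine Finset.sum_eq_zero fun j hj => ?_
    rw [lp.single_apply_ne]
    rintro rfl
    exact hi hj
  · intro i hi
    rw [lp.coeFn_sum, Finset.sum_apply, Finset.sum_eq_single i]
    · rw [lp.single_apply_self]
      exact hzS i
    · intro j _ hj
      rw [lp.single_apply_ne]
      exact fun h => hj h.symm
    · intro h
      exact absurd hi h

/-- AMUC of the l2-sum from the quadratic midpoint inequality on dense subsets of the summands. -/
theorem amuc_lp_two {c : ℝ} (hc : 0 < c) (hc2 : c ≤ 2) (S : ∀ i, Set (E i))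
    (hS : ∀ i, Dense (S i)) (h : ∀ i, ∀ x0 ∈ S i, QuadMid c x0) :
    ∀ t : ℝ, 0 < t → ∃ d : ℝ, 0 < d ∧ ∀ x : lp E 2, ‖x‖ = 1 → ∃ F : Submodule ℝ (lp E 2),
      IsClosed (F : Set (lp E 2)) ∧ FiniteDimensional ℝ (lp E 2 ⧸ F) ∧
      ∀ y ∈ F, ‖y‖ = 1 → 1 + d ≤ max ‖x + t • y‖ ‖x - t • y‖ := by
  refine amuc_of_dense hc _ (dense_finite_support S hS) ?_
  rintro x0 ⟨s, h0, h1⟩
  exact quadMid_lp_two hc2 s x0 h0 fun i hi => h i _ (h1 i hi)

end lpsum

end Vale.Agent.Lib.P069
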