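import Vale.Agent.Lib.P069.Defs

/-!
# P069: the combinatorial core of the key lemma (truncation of branch sums)

Pure statements about functions on the tree `List ℕ` (child `k :: p`, ancestors = suffixes).
-/

namespace Vale.Agent.Lib.P069

open Classical in
/-- restriction of `f` to `old` -/
noncomputable def resOld (old : Set (List ℕ)) (f : List ℕ → ℝ) : List ℕ → ℝ :=
  fun s => if s ∈ old then f s else 0

open Classical in
/-- restriction of `f` to the complement of `old` -/
noncomputable def resNew (old : Set (List ℕ)) (f : List ℕ → ℝ) : List ℕ → ℝ :=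
  fun s => if s ∈ old then 0 else f s

theorem psum_lin (a b : ℝ) (u v : List ℕ → ℝ) (r : List ℕ) :
    psum (fun s => a * u s + b * v s) r = a * psum u r + b * psum v r := by
  induction r with
  | nil => simp
  | cons k p ih => simp only [psum_cons, ih]; ring

theorem resOld_of_mem {old : Set (List ℕ)} (f : List ℕ → ℝ) {s : List ℕ} (hs : s ∈ old) :
    resOld old f s = f s := by simp [resOld, hs]

theorem resOld_of_not_mem {old : Set (List ℕ)} (f : List ℕ → ℝ) {s : List ℕ} (hs : s ∉ old) :
    resOld old f s = 0 := by simp [resOld, hs]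

theorem resNew_of_mem {old : Set (List ℕ)} (f : List ℕ → ℝ) {s : List ℕ} (hs : s ∈ old) :
    resNew old f s = 0 := by simp [resNew, hs]

theorem resNew_of_not_mem {old : Set (List ℕ)} (f : List ℕ → ℝ) {s : List ℕ} (hs : s ∉ old) :
    resNew old f s = f s := by simp [resNew, hs]

theorem psum_resOld_of_mem {old : Set (List ℕ)} (hcl : ∀ k p, k :: p ∈ old → p ∈ old)
    (f : List ℕ → ℝ) : ∀ r ∈ old, psum (resOld old f) r = psum f r := by
  intro r
  induction r with
  | nil => intro _; rfl
  | cons k p ih =>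
    intro hr
    rw [psum_cons, psum_cons, resOld_of_mem f hr, ih (hcl k p hr)]

theorem psum_resNew_of_mem {old : Set (List ℕ)} (hcl : ∀ k p, k :: p ∈ old → p ∈ old)
    (f : List ℕ → ℝ) : ∀ r ∈ old, psum (resNew old f) r = 0 := by
  intro r
  induction r with
  | nil => intro _; rfl
  | cons k p ih =>
    intro hr
    rw [psum_cons, resNew_of_mem f hr, ih (hcl k p hr), add_zero]

/-- the longest old ancestor -/
theorem exists_old_ancestor {old : Set (List ℕ)} (h0 : [] ∈ old)
    (hcl : ∀ k p, k :: p ∈ old → p ∈ old) (r : List ℕ) :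
    ∃ r' : List ℕ, r'.length ≤ r.length ∧ r' ∈ old ∧ ∀ f : List ℕ → ℝ,
      psum (resOld old f) r = psum f r' ∧ psum (resNew old f) r = psum f r - psum f r' := by
  induction r with
  | nil => exact ⟨[], le_rfl, h0, fun f => by simp⟩
  | cons k p ih =>
    by_cases hr : k :: p ∈ old
    · refine ⟨k :: p, le_rfl, hr, fun f => ?_⟩
      rw [psum_resOld_of_mem hcl f _ hr, psum_resNew_of_mem hcl f _ hr]
      simp
    · obtain ⟨r', hlen, hr', hf⟩ := ih
      refine ⟨r', hlen.trans (by simp), hr', fun f => ?_⟩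
      rw [psum_cons, psum_cons, resOld_of_not_mem f hr, resNew_of_not_mem f hr, (hf f).1,
        (hf f).2, psum_cons]
      constructor <;> ring

theorem abs_psum_resOld_le {n : ℕ} {old : Set (List ℕ)} (h0 : [] ∈ old)
    (hcl : ∀ k p, k :: p ∈ old → p ∈ old) {f : List ℕ → ℝ}
    (hf : ∀ r : List ℕ, r.length ≤ n → |psum f r| ≤ 1) (r : List ℕ) (hr : r.length ≤ n) :
    |psum (resOld old f) r| ≤ 1 := by
  obtain ⟨r', hlen, -, h⟩ := exists_old_ancestor h0 hcl r
  rw [(h f).1]
  exact hf r' (hlen.trans hr)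

theorem abs_psum_resNew_le {n : ℕ} {old : Set (List ℕ)} (h0 : [] ∈ old)
    (hcl : ∀ k p, k :: p ∈ old → p ∈ old) {f : List ℕ → ℝ}
    (hf : ∀ r : List ℕ, r.length ≤ n → |psum f r| ≤ 1) (r : List ℕ) (hr : r.length ≤ n) :
    |psum (resNew old f) r| ≤ 2 := by
  obtain ⟨r', hlen, -, h⟩ := exists_old_ancestor h0 hcl r
  rw [(h f).2]
  have h1 := hf r' (hlen.trans hr)
  have h2 := hf r hr
  rw [abs_le] at *
  constructor <;> linarith [h1.1, h1.2, h2.1, h2.2]

/-- increments of a function on the tree -/
def incr (G : List ℕ → ℝ) : List ℕ → ℝ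
  | [] => 0
  | k :: p => G (k :: p) - G p

theorem psum_incr {G : List ℕ → ℝ} (hG : G [] = 0) (r : List ℕ) : psum (incr G) r = G r := by
  induction r with
  | nil => simp [hG]
  | cons k p ih => rw [psum_cons, ih]; simp [incr]

/-- The combinatorial core of the key lemma. -/
theorem trunc_core (n : ℕ) (old : Set (List ℕ)) (h0 : [] ∈ old)
    (hcl : ∀ k p, k :: p ∈ old → p ∈ old) (f h : List ℕ → ℝ)
    (hf : ∀ r : List ℕ, r.length ≤ n → |psum f r| ≤ 1)
    (hh : ∀ r : List ℕ, r.length ≤ n → |psum h r| ≤ 1) :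
    ∃ gA gB : List ℕ → ℝ, (∀ s, |gA s| ≤ |h s| ∧ |gB s| ≤ |h s|) ∧
      (∀ s ∈ old, gA s = 0 ∧ gB s = 0) ∧ (∀ s, s ∉ old → gA s + gB s = h s) ∧
      ∀ al be : ℝ, 0 ≤ al → al ≤ 1 → 0 ≤ be → be ≤ 1 → ∀ r : List ℕ, r.length ≤ n →
        |psum (fun s => al * resOld old f s + be / 2 * gA s) r| ≤ 1 ∧
        |psum (fun s => al * resOld old f s - be / 2 * gB s) r| ≤ 1 := by
  classical
  set P : List ℕ → ℝ := psum (resOld old f) with hP
  set H : List ℕ → ℝ := psum (resNew old h) with hH
  set GA : List ℕ → ℝ := fun r => if 0 ≤ P r then min (H r) 0 else max (H r) 0 with hGA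
  set GB : List ℕ → ℝ := fun r => if 0 ≤ P r then max (H r) 0 else min (H r) 0 with hGB
  have hsum : ∀ r, GA r + GB r = H r := by
    intro r
    simp only [hGA, hGB]
    split_ifs
    · rw [min_add_max, add_zero]
    · rw [add_comm, min_add_max, add_zero]
  have hGA0 : GA [] = 0 := by simp [hGA, hP, hH]
  have hGB0 : GB [] = 0 := by simp [hGB, hP, hH]
  have hHold : ∀ s ∈ old, H s = 0 := fun s hs => psum_resNew_of_mem hcl h s hs
  have hGAold : ∀ s ∈ old, GA s = 0 := by
    intro s hs
    simp [hGA, hHold s hs]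
  have hGBold : ∀ s ∈ old, GB s = 0 := by
    intro s hs
    simp [hGB, hHold s hs]
  have hPnew : ∀ k p, k :: p ∉ old → P (k :: p) = P p := by
    intro k p hs
    rw [hP, psum_cons, resOld_of_not_mem f hs, zero_add]
  have hHnew : ∀ k p, k :: p ∉ old → H (k :: p) - H p = h (k :: p) := by
    intro k p hs
    rw [hH, psum_cons, resNew_of_not_mem h hs]
    ring
  have hmin : ∀ a b : ℝ, |min a 0 - min b 0| ≤ |a - b| := by
    intro a b
    have := abs_min_sub_min_le_max a 0 b 0
    simpa using this
  have hmax : ∀ a b : ℝ, |max a 0 - max b 0| ≤ |a - b| := by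
    intro a b
    have := abs_max_sub_max_le_max a 0 b 0
    simpa using this
  refine ⟨incr GA, incr GB, ?_, ?_, ?_, ?_⟩
  · intro s
    cases s with
    | nil => simp [incr]
    | cons k p =>
      by_cases hs : k :: p ∈ old
      · have hp := hcl k p hs
        simp [incr, hGAold _ hs, hGAold _ hp, hGBold _ hs, hGBold _ hp]
      · have h1 := hPnew k p hs
        have h2 := hHnew k p hs
        simp only [incr, hGA, hGB, h1]
        rw [← h2]
        split_ifs
        · exact ⟨hmin _ _, hmax _ _⟩
        · exact ⟨hmax _ _, hmin _ _⟩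
  · intro s hs
    cases s with
    | nil => simp [incr]
    | cons k p =>
      have hp := hcl k p hs
      simp [incr, hGAold _ hs, hGAold _ hp, hGBold _ hs, hGBold _ hp]
  · intro s hs
    cases s with
    | nil => exact absurd h0 hs
    | cons k p =>
      have h2 := hHnew k p hs
      simp only [incr]
      have e1 := hsum (k :: p)
      have e2 := hsum p
      linarith
  · intro al be hal0 hal1 hbe0 hbe1 r hr
    have hPr : |P r| ≤ 1 := abs_psum_resOld_le h0 hcl hf r hr
    have hHr : |H r| ≤ 2 := abs_psum_resNew_le h0 hcl hh r hr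
    rw [abs_le] at hPr hHr
    have e1 : psum (fun s => al * resOld old f s + be / 2 * incr GA s) r =
        al * P r + be / 2 * GA r := by
      rw [psum_lin, psum_incr hGA0]
    have e2 : psum (fun s => al * resOld old f s - be / 2 * incr GB s) r =
        al * P r - be / 2 * GB r := by
      have : (fun s => al * resOld old f s - be / 2 * incr GB s) =
          fun s => al * resOld old f s + (-(be / 2)) * incr GB s := by
        funext s; ring
      rw [this, psum_lin, psum_incr hGB0]
      ring
    rw [e1, e2]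
    by_cases hσ : 0 ≤ P r
    · have hA : GA r = min (H r) 0 := by simp [hGA, hσ]
      have hB : GB r = max (H r) 0 := by simp [hGB, hσ]
      have a1 : GA r ≤ 0 := by rw [hA]; exact min_le_right _ _
      have a2 : -2 ≤ GA r := by rw [hA]; exact le_min hHr.1 (by norm_num)
      have b1 : 0 ≤ GB r := by rw [hB]; exact le_max_right _ _
      have b2 : GB r ≤ 2 := by rw [hB]; exact max_le hHr.2 (by norm_num)
      have p1 : 0 ≤ al * P r := mul_nonneg hal0 hσ
      have p2 : al * P r ≤ 1 := by nlinarith [hPr.2]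
      have q1 : be / 2 * GA r ≤ 0 := by nlinarith
      have q2 : -1 ≤ be / 2 * GA r := by nlinarith
      have q3 : 0 ≤ be / 2 * GB r := by positivity
      have q4 : be / 2 * GB r ≤ 1 := by nlinarith
      constructor <;> rw [abs_le] <;> constructor <;> linarith
    · have hσ' : P r < 0 := not_le.mp hσ
      have hA : GA r = max (H r) 0 := by simp [hGA, hσ]
      have hB : GB r = min (H r) 0 := by simp [hGB, hσ]
      have a1 : 0 ≤ GA r := by rw [hA]; exact le_max_right _ _
      have a2 : GA r ≤ 2 := by rw [hA]; exact max_le hHr.2 (by norm_num)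
      have b1 : GB r ≤ 0 := by rw [hB]; exact min_le_right _ _
      have b2 : -2 ≤ GB r := by rw [hB]; exact le_min hHr.1 (by norm_num)
      have p1 : al * P r ≤ 0 := by nlinarith
      have p2 : -1 ≤ al * P r := by nlinarith [hPr.1]
      have q1 : 0 ≤ be / 2 * GA r := by positivity
      have q2 : be / 2 * GA r ≤ 1 := by nlinarith
      have q3 : be / 2 * GB r ≤ 0 := by nlinarith
      have q4 : -1 ≤ be / 2 * GB r := by nlinarith
      constructor <;> rw [abs_le] <;> constructor <;> linarith

/-- The sign adapted splitting, for functions. -/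
theorem trunc_split (n : ℕ) (old : Set (List ℕ)) (h0 : [] ∈ old)
    (hcl : ∀ k p, k :: p ∈ old → p ∈ old) (f0 h : List ℕ → ℝ)
    (hf0 : ∀ s, s ∉ old → f0 s = 0)
    (hh : ∀ r : List ℕ, r.length ≤ n → |psum h r| ≤ 1) :
    ∃ gA gB : List ℕ → ℝ, (∀ s, |gA s| ≤ |h s| ∧ |gB s| ≤ |h s|) ∧
      (∀ s ∈ old, gA s = 0 ∧ gB s = 0) ∧ (∀ s, s ∉ old → gA s + gB s = h s) ∧
      ∀ r : List ℕ, r.length ≤ n →
        (0 ≤ psum f0 r →
          (-2 ≤ psum gA r ∧ psum gA r ≤ 0 ∧ 0 ≤ psum gB r ∧ psum gB r ≤ 2)) ∧
        (psum f0 r < 0 →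
          (0 ≤ psum gA r ∧ psum gA r ≤ 2 ∧ -2 ≤ psum gB r ∧ psum gB r ≤ 0)) := by
  classical
  set P : List ℕ → ℝ := psum f0 with hP
  set H : List ℕ → ℝ := psum (resNew old h) with hH
  set GA : List ℕ → ℝ := fun r => if 0 ≤ P r then min (H r) 0 else max (H r) 0 with hGA
  set GB : List ℕ → ℝ := fun r => if 0 ≤ P r then max (H r) 0 else min (H r) 0 with hGB
  have hsum : ∀ r, GA r + GB r = H r := by
    intro r
    simp only [hGA, hGB]
    split_ifs
    · rw [min_add_max, add_zero]
    · rw [add_comm, min_add_max, add_zero]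
  have hGA0 : GA [] = 0 := by simp [hGA, hP, hH]
  have hGB0 : GB [] = 0 := by simp [hGB, hP, hH]
  have hHold : ∀ s ∈ old, H s = 0 := fun s hs => psum_resNew_of_mem hcl h s hs
  have hGAold : ∀ s ∈ old, GA s = 0 := by
    intro s hs
    simp [hGA, hHold s hs]
  have hGBold : ∀ s ∈ old, GB s = 0 := by
    intro s hs
    simp [hGB, hHold s hs]
  have hPnew : ∀ k p, k :: p ∉ old → P (k :: p) = P p := by
    intro k p hs
    rw [hP, psum_cons, hf0 _ hs, zero_add]
  have hHnew : ∀ k p, k :: p ∉ old → H (k :: p) - H p = h (k :: p) := by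
    intro k p hs
    rw [hH, psum_cons, resNew_of_not_mem h hs]
    ring
  have hmin : ∀ a b : ℝ, |min a 0 - min b 0| ≤ |a - b| := by
    intro a b
    have := abs_min_sub_min_le_max a 0 b 0
    simpa using this
  have hmax : ∀ a b : ℝ, |max a 0 - max b 0| ≤ |a - b| := by
    intro a b
    have := abs_max_sub_max_le_max a 0 b 0
    simpa using this
  refine ⟨incr GA, incr GB, ?_, ?_, ?_, ?_⟩
  · intro s
    cases s with
    | nil => simp [incr]
    | cons k p =>
      by_cases hs : k :: p ∈ old
      · have hp := hcl k p hs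
        simp [incr, hGAold _ hs, hGAold _ hp, hGBold _ hs, hGBold _ hp]
      · have h1 := hPnew k p hs
        have h2 := hHnew k p hs
        simp only [incr, hGA, hGB, h1]
        rw [← h2]
        split_ifs
        · exact ⟨hmin _ _, hmax _ _⟩
        · exact ⟨hmax _ _, hmin _ _⟩
  · intro s hs
    cases s with
    | nil => simp [incr]
    | cons k p =>
      have hp := hcl k p hs
      simp [incr, hGAold _ hs, hGAold _ hp, hGBold _ hs, hGBold _ hp]
  · intro s hs
    cases s with
    | nil => exact absurd h0 hs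
    | cons k p =>
      have h2 := hHnew k p hs
      simp only [incr]
      have e1 := hsum (k :: p)
      have e2 := hsum p
      linarith
  · intro r hr
    have hHr : |H r| ≤ 2 := abs_psum_resNew_le h0 hcl hh r hr
    rw [abs_le] at hHr
    rw [psum_incr hGA0, psum_incr hGB0]
    constructor
    · intro hσ
      have hA : GA r = min (H r) 0 := by simp [hGA, hσ]
      have hB : GB r = max (H r) 0 := by simp [hGB, hσ]
      rw [hA, hB]
      exact ⟨le_min hHr.1 (by norm_num), min_le_right _ _, le_max_right _ _,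
        max_le hHr.2 (by norm_num)⟩
    · intro hσ'
      have hσ : ¬ 0 ≤ P r := not_le.mpr hσ'
      have hA : GA r = max (H r) 0 := by simp [hGA, hσ]
      have hB : GB r = min (H r) 0 := by simp [hGB, hσ]
      rw [hA, hB]
      exact ⟨le_max_right _ _, max_le hHr.2 (by norm_num), le_min hHr.1 (by norm_num),
        min_le_right _ _⟩

end Vale.Agent.Lib.P069
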