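import Vale.Agent.Lib.P069.Defs
import Vale.Agent.Lib.P069.Trunc

/-!
# P069 task T2a: restriction to a suffix closed set of nodes
-/

namespace Vale.Agent.Lib.P069

/-- Ancestor closed sets of nodes containing the root. -/
def SufClosed (A : Set (List ℕ)) : Prop := [] ∈ A ∧ ∀ k p, (k :: p) ∈ A → p ∈ A

/-- Restriction of `f` to the set `A`. -/
noncomputable def restr (A : Set (List ℕ)) (f : H) : H :=
  ⟨Set.indicator A (⇑f), (lp.memℓp f).mono' (fun s => by
    by_cases hs : s ∈ A
    · rw [Set.indicator_of_mem hs]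
    · rw [Set.indicator_of_notMem hs]; simp)⟩

theorem restr_apply_of_mem {A : Set (List ℕ)} (f : H) {s : List ℕ} (hs : s ∈ A) :
    restr A f s = f s := Set.indicator_of_mem hs _

theorem restr_apply_of_notMem {A : Set (List ℕ)} (f : H) {s : List ℕ} (hs : s ∉ A) :
    restr A f s = 0 := Set.indicator_of_notMem hs _

theorem abs_restr_apply_le (A : Set (List ℕ)) (f : H) (s : List ℕ) : |restr A f s| ≤ |f s| := by
  by_cases hs : s ∈ A
  · rw [restr_apply_of_mem f hs]
  · rw [restr_apply_of_notMem f hs]; simp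

theorem norm_restr_le (A : Set (List ℕ)) (f : H) : ‖restr A f‖ ≤ ‖f‖ :=
  lp.norm_mono (by norm_num) (fun s => by simpa using abs_restr_apply_le A f s)

theorem coe_restr (A : Set (List ℕ)) (f : H) : ⇑(restr A f) = resOld A f := by
  funext s
  by_cases hs : s ∈ A
  · rw [restr_apply_of_mem f hs, resOld_of_mem _ hs]
  · rw [restr_apply_of_notMem f hs, resOld_of_not_mem _ hs]

theorem coe_restr_compl (A : Set (List ℕ)) (f : H) : ⇑(restr Aᶜ f) = resNew A f := by
  funext s
  by_cases hs : s ∈ A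
  · rw [restr_apply_of_notMem f (by simpa using hs), resNew_of_mem _ hs]
  · rw [restr_apply_of_mem f (by simpa using hs), resNew_of_not_mem _ hs]

/-- Sketch: induction on `r`; if `k :: p ∈ A` then `p ∈ A`. -/
theorem psum_restr_of_mem {A : Set (List ℕ)} (hA : SufClosed A) (f : H) {r : List ℕ}
    (hr : r ∈ A) : psum (restr A f) r = psum f r := by
  rw [coe_restr]
  exact psum_resOld_of_mem hA.2 f r hr

/-- Sketch: induction on `r`; if `k :: p ∈ A` use `psum_restr_of_mem` and `r' = k :: p`,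
otherwise the new term vanishes and the `r'` of `p` works. -/
theorem exists_psum_restr_eq {A : Set (List ℕ)} (hA : SufClosed A) (f : H) (r : List ℕ) :
    ∃ r' : List ℕ, r'.length ≤ r.length ∧ psum (restr A f) r = psum f r' := by
  obtain ⟨r', hlen, -, h⟩ := exists_old_ancestor hA.1 hA.2 r
  exact ⟨r', hlen, by rw [coe_restr]; exact (h f).1⟩

theorem restr_mem_D {n : ℕ} {A : Set (List ℕ)} (hA : SufClosed A) {f : H} (hf : f ∈ D n) :
    restr A f ∈ D n := by
  refine ⟨(norm_restr_le A f).trans hf.1, fun r hr => ?_⟩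
  rw [coe_restr]
  exact abs_psum_resOld_le hA.1 hA.2 hf.2 r hr

/-- Sketch: `psum (restr Aᶜ h) r = psum h r - psum (restr A h) r` by induction. -/
theorem abs_psum_restr_compl_le {n : ℕ} {A : Set (List ℕ)} (hA : SufClosed A) {h : H}
    (hh : h ∈ D n) (r : List ℕ) (hr : r.length ≤ n) : |psum (restr Aᶜ h) r| ≤ 2 := by
  rw [coe_restr_compl]
  exact abs_psum_resNew_le hA.1 hA.2 hh.2 r hr

theorem psum_restr_compl_of_mem {A : Set (List ℕ)} (hA : SufClosed A) (h : H) {r : List ℕ}
    (hr : r ∈ A) : psum (restr Aᶜ h) r = 0 := by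
  rw [coe_restr_compl]
  exact psum_resNew_of_mem hA.2 h r hr

end Vale.Agent.Lib.P069
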