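import Vale.Agent.Lib.P069.Space
import Vale.Agent.Lib.P069.Restr

/-!
# P069 task T3b: finitely supported vectors are dense in `X`
-/

namespace Vale.Agent.Lib.P069

/-- The finite suffix closed hull. -/
def sufClosure (B : Finset (List ℕ)) : Finset (List ℕ) :=
  insert [] (B.biUnion fun s => s.tails.toFinset)

theorem subset_sufClosure (B : Finset (List ℕ)) : B ⊆ sufClosure B := by
  intro s hs
  unfold sufClosure
  refine Finset.mem_insert_of_mem (Finset.mem_biUnion.mpr ⟨s, hs, ?_⟩)
  simp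

theorem sufClosed_sufClosure (B : Finset (List ℕ)) :
    SufClosed (sufClosure B : Set (List ℕ)) := by
  refine ⟨by simp [sufClosure], fun k p h => ?_⟩
  have h' : (k :: p) ∈ sufClosure B := h
  unfold sufClosure at h' ⊢
  rw [Finset.mem_insert] at h'
  rcases h' with h' | h'
  · cases h'
  · obtain ⟨s, hs, hk⟩ := Finset.mem_biUnion.mp h'
    rw [List.mem_toFinset, List.mem_tails] at hk
    have h2 : p <:+ s := (List.suffix_cons k p).trans hk
    exact Finset.mem_coe.mpr (Finset.mem_insert_of_mem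
      (Finset.mem_biUnion.mpr ⟨s, hs, by simpa using h2⟩))

theorem exists_approx (x : X) {η : ℝ} (hη : 0 < η) :
    ∃ (S : Finset ℕ) (A : Finset (List ℕ)) (x' : X), SufClosed (A : Set (List ℕ)) ∧
      ‖x - x'‖ ≤ η ∧ (∀ n, n ∉ S → x' n = 0) ∧ (∀ n s, s ∉ A → Xn.toH n (x' n) s = 0) := by
  classical
  -- step 1
  have h1 : HasSum (fun n : ℕ => lp.single 2 n (x n)) x := lp.hasSum_single (by norm_num) x
  have h1' := (Metric.tendsto_nhds.mp h1) (η / 2) (by positivity)
  obtain ⟨S, hS⟩ := h1'.exists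
  -- step 2
  set c : ℝ := η / (2 * ((S.card : ℝ) + 1)) with hc
  have hcpos : 0 < c := by positivity
  have h2 : ∀ n ∈ S, ∀ᶠ B : Finset (List ℕ) in Filter.atTop,
      dist (∑ s ∈ B, lp.single 2 s (Xn.toH n (x n) s) : H) (Xn.toH n (x n)) < c := by
    intro n _
    have h : HasSum (fun s : List ℕ => (lp.single 2 s (Xn.toH n (x n) s) : H)) (Xn.toH n (x n)) :=
      lp.hasSum_single (by norm_num) (Xn.toH n (x n))
    exact (Metric.tendsto_nhds.mp h) c hcpos
  have h3 := (Filter.eventually_all_finset S).mpr h2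
  obtain ⟨B0, hB0⟩ := Filter.eventually_atTop.mp h3
  set A := sufClosure B0 with hA
  have hAB := hB0 A (subset_sufClosure B0)
  -- the approximant
  set z : ∀ n, Xn n := fun n => (Xn.toH n).symm (∑ s ∈ A, lp.single 2 s (Xn.toH n (x n) s)) with hz
  refine ⟨S, A, ∑ n ∈ S, lp.single 2 n (z n), sufClosed_sufClosure B0, ?_, ?_, ?_⟩
  · have e1 : x - ∑ n ∈ S, lp.single 2 n (z n)
        = (x - ∑ n ∈ S, lp.single 2 n (x n)) + ∑ n ∈ S, lp.single 2 n (x n - z n) := by
      simp only [lp.single_sub, Finset.sum_sub_distrib]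
      abel
    rw [e1]
    have e2 : ‖x - ∑ n ∈ S, lp.single 2 n (x n)‖ ≤ η / 2 := by
      rw [← dist_eq_norm, dist_comm]; exact hS.le
    have e3 : ‖∑ n ∈ S, (lp.single 2 n (x n - z n) : X)‖ ≤ ∑ n ∈ S, c := by
      refine (norm_sum_le _ _).trans (Finset.sum_le_sum fun n hn => ?_)
      rw [lp.norm_single (by norm_num), Xn.norm_def, map_sub]
      have e4 : Xn.toH n (z n) = ∑ s ∈ A, lp.single 2 s (Xn.toH n (x n) s) := by
        rw [hz]; exact LinearEquiv.apply_symm_apply _ _
      rw [e4]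
      refine (N_le_norm n _).trans ?_
      rw [← dist_eq_norm, dist_comm]
      exact (hAB n hn).le
    have e5 : ∑ n ∈ S, c ≤ η / 2 := by
      rw [Finset.sum_const, nsmul_eq_mul, hc]
      have hpos : (0 : ℝ) < (S.card : ℝ) + 1 := by positivity
      rw [mul_div_assoc', div_le_div_iff₀ (by positivity) (by norm_num)]
      nlinarith
    calc _ ≤ ‖x - ∑ n ∈ S, lp.single 2 n (x n)‖ + ‖∑ n ∈ S, (lp.single 2 n (x n - z n) : X)‖ :=
          norm_add_le _ _
      _ ≤ η / 2 + η / 2 := add_le_add e2 (e3.trans e5)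
      _ = η := by ring
  · intro n hn
    rw [lp.coeFn_sum, Finset.sum_apply]
    refine Finset.sum_eq_zero fun m hm => ?_
    exact lp.single_apply_ne 2 m _ (fun h => hn (h ▸ hm))
  · intro n s hs
    by_cases hn : n ∈ S
    · have e6 : (∑ m ∈ S, (lp.single 2 m (z m) : X)) n = z n := by
        rw [lp.coeFn_sum, Finset.sum_apply, Finset.sum_eq_single n]
        · exact lp.single_apply_self 2 n _
        · intro m _ hmn
          exact lp.single_apply_ne 2 m _ (Ne.symm hmn)
        · intro h; exact absurd hn h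
      rw [e6]
      have e4 : Xn.toH n (z n) = ∑ s ∈ A, lp.single 2 s (Xn.toH n (x n) s) := by
        rw [hz]; exact LinearEquiv.apply_symm_apply _ _
      rw [e4, lp.coeFn_sum, Finset.sum_apply]
      refine Finset.sum_eq_zero fun s' hs' => ?_
      exact lp.single_apply_ne 2 s' _ (fun h => hs (h ▸ hs'))
    · have e7 : (∑ m ∈ S, (lp.single 2 m (z m) : X)) n = 0 := by
        rw [lp.coeFn_sum, Finset.sum_apply]
        refine Finset.sum_eq_zero fun m hm => ?_
        exact lp.single_apply_ne 2 m _ (fun h => hn (h ▸ hm))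
      rw [e7, map_zero]
      rfl

end Vale.Agent.Lib.P069
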