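import Vale.Agent.Lib.P069.SumCL
import Vale.Agent.Lib.P069.Approx
import Vale.Agent.Lib.P069.AmucDense

/-!
# P069 task T3d: the norm of `X` is AMUC

`amuc_of_dense` (file `AmucDense`) applied to the dense set of finitely supported vectors
(`exists_approx`), with the subspaces `Fsub S A` and the inequality `sum_CL`.
-/

namespace Vale.Agent.Lib.P069

theorem X_AMUC : IsAMUC (fun x : X => ‖x‖) := by
  have hdense : Dense {x' : X | ∃ (S : Finset ℕ) (A : Finset (List ℕ)),
      SufClosed (A : Set (List ℕ)) ∧ (∀ n, n ∉ S → x' n = 0) ∧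
      (∀ n s, s ∉ A → Xn.toH n (x' n) s = 0)} := by
    rw [Metric.dense_iff]
    intro x ε hε
    obtain ⟨S, A, x', hA, hxx, h1, h2⟩ := exists_approx x (half_pos hε)
    refine ⟨x', ?_, S, A, hA, h1, h2⟩
    rw [Metric.mem_ball, dist_eq_norm, norm_sub_rev]
    linarith
  have key := amuc_of_dense (c := 1 / 8) (by norm_num) _ hdense (by
    rintro x' ⟨S, A, hA, h1, h2⟩
    refine ⟨Fsub S A, (isCof_Fsub S A).1, (isCof_Fsub S A).2, fun y hy => ?_⟩
    have := sum_CL hA x' y h1 h2 hy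
    linarith)
  intro t ht
  obtain ⟨d, hd, h⟩ := key t ht
  refine ⟨d, hd, fun x hx => ?_⟩
  obtain ⟨F, hF1, hF2, hF3⟩ := h x hx
  exact ⟨F, ⟨hF1, hF2⟩, hF3⟩

end Vale.Agent.Lib.P069
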