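import Vale.Agent.Lib.P069.Trunc

/-!
# P069: the key inequality (CL) on the level of `l2 (List Nat)`
-/

namespace Vale.Agent.Lib.P069

open scoped ENNReal

/-- The Hilbert space `l2` over the nodes of the countably branching tree. -/
abbrev HT : Type := lp (fun _ : List ℕ => ℝ) 2

/-- A function dominated by an element of `l2` is an element of `l2`. -/
noncomputable def mkLe (g : List ℕ → ℝ) (h : HT) (hg : ∀ s, |g s| ≤ |h s|) : HT :=
  ⟨g, (lp.memℓp h).norm.mono (fun s => by simpa using hg s)⟩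

@[simp] theorem mkLe_apply (g : List ℕ → ℝ) (h : HT) (hg : ∀ s, |g s| ≤ |h s|) (s : List ℕ) :
    mkLe g h hg s = g s := rfl

theorem norm_mkLe_le (g : List ℕ → ℝ) (h : HT) (hg : ∀ s, |g s| ≤ |h s|) :
    ‖mkLe g h hg‖ ≤ ‖h‖ :=
  lp.norm_mono (by simp) (fun s => by simpa using hg s)

theorem inner_eq_zero_of_mul (u v : HT) (h : ∀ s, u s * v s = 0) : inner ℝ u v = 0 := by
  rw [lp.inner_eq_tsum]
  have : (fun s => inner ℝ (u s) (v s)) = fun _ => (0 : ℝ) := by
    funext s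
    have := h s
    simp only [RCLike.inner_apply, conj_trivial]
    linarith [mul_comm (u s) (v s)]
  rw [this, tsum_zero]

theorem inner_congr_of_mul (u u' v : HT) (h : ∀ s, u s * v s = u' s * v s) :
    inner ℝ u v = inner ℝ u' v := by
  rw [lp.inner_eq_tsum, lp.inner_eq_tsum]
  congr 1
  funext s
  have := h s
  simp only [RCLike.inner_apply, conj_trivial]
  linarith [mul_comm (u s) (v s), mul_comm (u' s) (v s)]

theorem psum_neg_fun (f : List ℕ → ℝ) (r : List ℕ) :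
    psum (fun s => - f s) r = - psum f r := by
  induction r with
  | nil => simp [psum]
  | cons k p ih => simp only [psum, ih]; ring

theorem real_opt (a c M : ℝ) (ha : 0 ≤ a) (hc : 0 ≤ c)
    (h : ∀ al be : ℝ, 0 ≤ al → 0 ≤ be → al ^ 2 + be ^ 2 ≤ 1 → al * a + be * c ≤ M) :
    a ^ 2 + c ^ 2 ≤ M ^ 2 := by
  have hM : 0 ≤ M := by simpa using h 0 0 le_rfl le_rfl (by norm_num)
  by_cases hz : a ^ 2 + c ^ 2 = 0
  · rw [hz]; positivity
  have hpos : 0 < a ^ 2 + c ^ 2 := lt_of_le_of_ne (by positivity) (Ne.symm hz)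
  set ρ := Real.sqrt (a ^ 2 + c ^ 2) with hρ
  have hρpos : 0 < ρ := Real.sqrt_pos.2 hpos
  have hρsq : ρ ^ 2 = a ^ 2 + c ^ 2 := Real.sq_sqrt hpos.le
  have h1 := h (a / ρ) (c / ρ) (by positivity) (by positivity) (by
    rw [div_pow, div_pow, ← add_div, hρsq, div_self hz])
  have h2 : a / ρ * a + c / ρ * c = ρ := by
    field_simp
    nlinarith
  rw [h2] at h1
  rw [← hρsq]
  exact pow_le_pow_left₀ hρpos.le h1 2

theorem real_opt' (a p M : ℝ) (ha : 0 ≤ a)
    (h : ∀ al be : ℝ, 0 ≤ al → 0 ≤ be → al ^ 2 + be ^ 2 ≤ 1 → al * a + be / 2 * p ≤ M) :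
    a ^ 2 + (max (p / 2) 0) ^ 2 ≤ M ^ 2 := by
  apply real_opt a _ M ha (le_max_right _ _)
  intro al be hal hbe hab
  rcases le_total 0 p with hp | hp
  · rw [max_eq_left (by linarith)]
    have := h al be hal hbe hab
    linarith
  · rw [max_eq_right (by linarith)]
    have := h al 0 hal le_rfl (by nlinarith)
    linarith

theorem CL_lp_nonneg (n : ℕ) (old : Set (List ℕ)) (h0 : [] ∈ old)
    (hcl : ∀ k p, k :: p ∈ old → p ∈ old) (x y f h : HT)
    (hx : ∀ s, s ∉ old → x s = 0) (hy : ∀ s, s ∈ old → y s = 0)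
    (hf1 : ‖f‖ ≤ 1) (hf2 : ∀ r, r.length ≤ n → |psum f r| ≤ 1)
    (hh1 : ‖h‖ ≤ 1) (hh2 : ∀ r, r.length ≤ n → |psum h r| ≤ 1)
    (Mp Mm : ℝ)
    (hMp : ∀ u : HT, ‖u‖ ≤ 1 → (∀ r, r.length ≤ n → |psum u r| ≤ 1) → inner ℝ u (x + y) ≤ Mp)
    (hMm : ∀ u : HT, ‖u‖ ≤ 1 → (∀ r, r.length ≤ n → |psum u r| ≤ 1) → inner ℝ u (x - y) ≤ Mm)
    (ha : 0 ≤ inner ℝ f x) (hb : 0 ≤ inner ℝ h y) :
    2 * (inner ℝ f x) ^ 2 + (inner ℝ h y) ^ 2 / 8 ≤ Mp ^ 2 + Mm ^ 2 := by
  obtain ⟨gA, gB, hle, hold, hnew, hps⟩ := trunc_core n old h0 hcl f h hf2 hh2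
  set f0 : HT := mkLe (resOld old f) f (fun s => by
    by_cases hs : s ∈ old
    · rw [resOld_of_mem _ hs]
    · rw [resOld_of_not_mem _ hs]; simp) with hf0
  set GA : HT := mkLe gA h (fun s => (hle s).1) with hGA
  set GB : HT := mkLe gB h (fun s => (hle s).2) with hGB
  have hf0n : ‖f0‖ ≤ 1 := (norm_mkLe_le _ _ _).trans hf1
  have hGAn : ‖GA‖ ≤ 1 := (norm_mkLe_le _ _ _).trans hh1
  have hGBn : ‖GB‖ ≤ 1 := (norm_mkLe_le _ _ _).trans hh1
  have hf0s : ∀ s, f0 s = resOld old f s := fun s => rfl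
  have hGAs : ∀ s, GA s = gA s := fun s => rfl
  have hGBs : ∀ s, GB s = gB s := fun s => rfl
  have o1 : inner ℝ f0 GA = 0 := inner_eq_zero_of_mul _ _ (fun s => by
    by_cases hs : s ∈ old
    · rw [hGAs, (hold s hs).1, mul_zero]
    · rw [hf0s, resOld_of_not_mem _ hs, zero_mul])
  have o2 : inner ℝ f0 GB = 0 := inner_eq_zero_of_mul _ _ (fun s => by
    by_cases hs : s ∈ old
    · rw [hGBs, (hold s hs).2, mul_zero]
    · rw [hf0s, resOld_of_not_mem _ hs, zero_mul])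
  have o3 : inner ℝ f0 y = 0 := inner_eq_zero_of_mul _ _ (fun s => by
    by_cases hs : s ∈ old
    · rw [hy s hs, mul_zero]
    · rw [hf0s, resOld_of_not_mem _ hs, zero_mul])
  have o4 : inner ℝ GA x = 0 := inner_eq_zero_of_mul _ _ (fun s => by
    by_cases hs : s ∈ old
    · rw [hGAs, (hold s hs).1, zero_mul]
    · rw [hx s hs, mul_zero])
  have o5 : inner ℝ GB x = 0 := inner_eq_zero_of_mul _ _ (fun s => by
    by_cases hs : s ∈ old
    · rw [hGBs, (hold s hs).2, zero_mul]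
    · rw [hx s hs, mul_zero])
  have o6 : inner ℝ f0 x = inner ℝ f x := inner_congr_of_mul _ _ _ (fun s => by
    by_cases hs : s ∈ old
    · rw [hf0s, resOld_of_mem _ hs]
    · rw [hx s hs, mul_zero, mul_zero])
  have o7 : inner ℝ GA y + inner ℝ GB y = inner ℝ h y := by
    rw [← inner_add_left]
    apply inner_congr_of_mul
    intro s
    by_cases hs : s ∈ old
    · rw [hy s hs, mul_zero, mul_zero]
    · rw [lp.coeFn_add, Pi.add_apply, hGAs, hGBs, hnew s hs]
  set a := inner ℝ f x with hadef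
  set p := inner ℝ GA y with hpdef
  set q := inner ℝ GB y with hqdef
  have key : ∀ al be : ℝ, 0 ≤ al → 0 ≤ be → al ^ 2 + be ^ 2 ≤ 1 →
      al * a + be / 2 * p ≤ Mp ∧ al * a + be / 2 * q ≤ Mm := by
    intro al be hal hbe hab
    have hal1 : al ≤ 1 := by nlinarith
    have hbe1 : be ≤ 1 := by nlinarith
    constructor
    · have hu := hMp (al • f0 + (be / 2) • GA) ?_ ?_
      · rw [inner_add_left, inner_smul_left, inner_smul_left, inner_add_right, inner_add_right,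
          o3, o4, o6] at hu
        simpa using hu
      · have h1 : ‖al • f0 + (be / 2) • GA‖ ^ 2 ≤ 1 := by
          rw [norm_add_sq_real, inner_smul_left, inner_smul_right, o1, norm_smul, norm_smul,
            Real.norm_eq_abs, Real.norm_eq_abs, mul_pow, mul_pow, sq_abs, sq_abs]
          have e1 : ‖f0‖ ^ 2 ≤ 1 := pow_le_one₀ (norm_nonneg _) hf0n
          have e2 : ‖GA‖ ^ 2 ≤ 1 := pow_le_one₀ (norm_nonneg _) hGAn
          simp only [mul_zero, add_zero]
          nlinarith [sq_nonneg al, sq_nonneg be, mul_le_mul_of_nonneg_left e1 (sq_nonneg al),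
            mul_le_mul_of_nonneg_left e2 (sq_nonneg (be / 2))]
        exact (sq_le_one_iff₀ (norm_nonneg _)).1 h1
      · intro r hr
        have := (hps al be hal hal1 hbe hbe1 r hr).1
        convert this using 3
        funext s
        rw [lp.coeFn_add, Pi.add_apply, lp.coeFn_smul, lp.coeFn_smul, Pi.smul_apply,
          Pi.smul_apply, hf0s, hGAs, smul_eq_mul, smul_eq_mul]
    · have hu := hMm (al • f0 - (be / 2) • GB) ?_ ?_
      · rw [inner_sub_left, inner_smul_left, inner_smul_left, inner_sub_right, inner_sub_right,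
          o3, o5, o6] at hu
        simp only [conj_trivial, sub_zero, zero_sub, mul_neg, sub_neg_eq_add] at hu
        exact hu
      · have h1 : ‖al • f0 - (be / 2) • GB‖ ^ 2 ≤ 1 := by
          rw [norm_sub_sq_real, inner_smul_left, inner_smul_right, o2, norm_smul, norm_smul,
            Real.norm_eq_abs, Real.norm_eq_abs, mul_pow, mul_pow, sq_abs, sq_abs]
          have e1 : ‖f0‖ ^ 2 ≤ 1 := pow_le_one₀ (norm_nonneg _) hf0n
          have e2 : ‖GB‖ ^ 2 ≤ 1 := pow_le_one₀ (norm_nonneg _) hGBn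
          simp only [mul_zero, sub_zero]
          nlinarith [sq_nonneg al, sq_nonneg be, mul_le_mul_of_nonneg_left e1 (sq_nonneg al),
            mul_le_mul_of_nonneg_left e2 (sq_nonneg (be / 2))]
        exact (sq_le_one_iff₀ (norm_nonneg _)).1 h1
      · intro r hr
        have := (hps al be hal hal1 hbe hbe1 r hr).2
        convert this using 3
        funext s
        rw [lp.coeFn_sub, Pi.sub_apply, lp.coeFn_smul, lp.coeFn_smul, Pi.smul_apply,
          Pi.smul_apply, hf0s, hGBs, smul_eq_mul, smul_eq_mul]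
  have r1 := real_opt' a p Mp ha (fun al be h1 h2 h3 => (key al be h1 h2 h3).1)
  have r2 := real_opt' a q Mm ha (fun al be h1 h2 h3 => (key al be h1 h2 h3).2)
  have c1 : p / 2 ≤ max (p / 2) 0 := le_max_left _ _
  have c2 : q / 2 ≤ max (q / 2) 0 := le_max_left _ _
  have c3 : 0 ≤ max (p / 2) 0 := le_max_right _ _
  have c4 : 0 ≤ max (q / 2) 0 := le_max_right _ _
  set P := max (p / 2) 0
  set Q := max (q / 2) 0
  have hbPQ : inner ℝ h y / 2 ≤ P + Q := by rw [← o7]; linarith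
  have : (inner ℝ h y / 2) ^ 2 ≤ (P + Q) ^ 2 := pow_le_pow_left₀ (by linarith) hbPQ 2
  nlinarith [sq_nonneg (P - Q)]

theorem psum_neg_coe (f : HT) (r : List ℕ) : psum (-f : HT) r = - psum f r := by
  rw [← psum_neg_fun]
  congr 1

/-- The key inequality before taking suprema. -/
theorem CL_lp (n : ℕ) (old : Set (List ℕ)) (h0 : [] ∈ old)
    (hcl : ∀ k p, k :: p ∈ old → p ∈ old) (x y f h : HT)
    (hx : ∀ s, s ∉ old → x s = 0) (hy : ∀ s, s ∈ old → y s = 0)
    (hf1 : ‖f‖ ≤ 1) (hf2 : ∀ r, r.length ≤ n → |psum f r| ≤ 1)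
    (hh1 : ‖h‖ ≤ 1) (hh2 : ∀ r, r.length ≤ n → |psum h r| ≤ 1)
    (Mp Mm : ℝ)
    (hMp : ∀ u : HT, ‖u‖ ≤ 1 → (∀ r, r.length ≤ n → |psum u r| ≤ 1) → inner ℝ u (x + y) ≤ Mp)
    (hMm : ∀ u : HT, ‖u‖ ≤ 1 → (∀ r, r.length ≤ n → |psum u r| ≤ 1) →
      inner ℝ u (x - y) ≤ Mm) :
    2 * (inner ℝ f x) ^ 2 + (inner ℝ h y) ^ 2 / 8 ≤ Mp ^ 2 + Mm ^ 2 := by
  have hnf1 : ‖-f‖ ≤ 1 := by rwa [norm_neg]
  have hnh1 : ‖-h‖ ≤ 1 := by rwa [norm_neg]
  have hnf2 : ∀ r, r.length ≤ n → |psum (-f : HT) r| ≤ 1 := fun r hr => by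
    rw [psum_neg_coe, abs_neg]; exact hf2 r hr
  have hnh2 : ∀ r, r.length ≤ n → |psum (-h : HT) r| ≤ 1 := fun r hr => by
    rw [psum_neg_coe, abs_neg]; exact hh2 r hr
  rcases le_total 0 (inner ℝ f x) with ha | ha <;> rcases le_total 0 (inner ℝ h y) with hb | hb
  · exact CL_lp_nonneg n old h0 hcl x y f h hx hy hf1 hf2 hh1 hh2 Mp Mm hMp hMm ha hb
  · have := CL_lp_nonneg n old h0 hcl x y f (-h) hx hy hf1 hf2 hnh1 hnh2 Mp Mm hMp hMm ha
      (by rw [inner_neg_left]; linarith)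
    rw [inner_neg_left, neg_sq] at this
    exact this
  · have := CL_lp_nonneg n old h0 hcl x y (-f) h hx hy hnf1 hnf2 hh1 hh2 Mp Mm hMp hMm
      (by rw [inner_neg_left]; linarith) hb
    rw [inner_neg_left, neg_sq] at this
    exact this
  · have := CL_lp_nonneg n old h0 hcl x y (-f) (-h) hx hy hnf1 hnf2 hnh1 hnh2 Mp Mm hMp hMm
      (by rw [inner_neg_left]; linarith) (by rw [inner_neg_left]; linarith)
    rw [inner_neg_left, inner_neg_left, neg_sq, neg_sq] at this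
    exact this

/-- The dual ball: `l2`-norm at most one and all branch sums up to height `n` at most one. -/
def DT (n : ℕ) : Set HT := {u | ‖u‖ ≤ 1 ∧ ∀ r : List ℕ, r.length ≤ n → |psum u r| ≤ 1}

theorem psum_zero_coe (r : List ℕ) : psum ((0 : HT) : List ℕ → ℝ) r = 0 := by
  induction r with
  | nil => simp [psum]
  | cons k p ih => rw [psum, ih]; simp

theorem zero_mem_DT (n : ℕ) : (0 : HT) ∈ DT n := by
  refine ⟨by simp, fun r _ => ?_⟩
  rw [psum_zero_coe]; simp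

/-- The key inequality for any function `N` that is the support function of `DT n`. -/
theorem CL_sup (n : ℕ) (N : HT → ℝ) (hN1 : ∀ z, ∀ u ∈ DT n, inner ℝ u z ≤ N z)
    (hN2 : ∀ z c, (∀ u ∈ DT n, inner ℝ u z ≤ c) → N z ≤ c)
    (old : Set (List ℕ)) (h0 : [] ∈ old)
    (hcl : ∀ k p, k :: p ∈ old → p ∈ old) (x y : HT)
    (hx : ∀ s, s ∉ old → x s = 0) (hy : ∀ s, s ∈ old → y s = 0) :
    2 * N x ^ 2 + N y ^ 2 / 8 ≤ N (x + y) ^ 2 + N (x - y) ^ 2 := by
  set R := N (x + y) ^ 2 + N (x - y) ^ 2 with hR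
  have hpos : ∀ z, 0 ≤ N z := fun z => by simpa using hN1 z 0 (zero_mem_DT n)
  have main : ∀ f ∈ DT n, ∀ h ∈ DT n, 2 * (inner ℝ f x) ^ 2 + (inner ℝ h y) ^ 2 / 8 ≤ R :=
    fun f hf h hh => CL_lp n old h0 hcl x y f h hx hy hf.1 hf.2 hh.1 hh.2 _ _
      (fun u hu1 hu2 => hN1 _ u ⟨hu1, hu2⟩) (fun u hu1 hu2 => hN1 _ u ⟨hu1, hu2⟩)
  have step1 : ∀ h ∈ DT n, 2 * N x ^ 2 + (inner ℝ h y) ^ 2 / 8 ≤ R := by
    intro h hh
    set c := (R - (inner ℝ h y) ^ 2 / 8) / 2 with hc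
    have hc0 : 0 ≤ c := by
      have := main 0 (zero_mem_DT n) h hh
      simp only [inner_zero_left] at this
      rw [hc]; linarith
    have : N x ≤ Real.sqrt c := by
      apply hN2
      intro f hf
      apply Real.le_sqrt_of_sq_le
      have := main f hf h hh
      rw [hc]; linarith
    have h2 : N x ^ 2 ≤ c := by
      calc N x ^ 2 ≤ (Real.sqrt c) ^ 2 := pow_le_pow_left₀ (hpos x) this 2
        _ = c := Real.sq_sqrt hc0
    rw [hc] at h2; linarith
  set c := (R - 2 * N x ^ 2) * 8 with hc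
  have hc0 : 0 ≤ c := by
    have := step1 0 (zero_mem_DT n)
    simp only [inner_zero_left] at this
    rw [hc]; linarith
  have : N y ≤ Real.sqrt c := by
    apply hN2
    intro h hh
    apply Real.le_sqrt_of_sq_le
    have := step1 h hh
    rw [hc]; linarith
  have h2 : N y ^ 2 ≤ c := by
    calc N y ^ 2 ≤ (Real.sqrt c) ^ 2 := pow_le_pow_left₀ (hpos y) this 2
      _ = c := Real.sq_sqrt hc0
  rw [hc] at h2; linarith

end Vale.Agent.Lib.P069
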