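import Vale.Agent.Lib.P069.Restr
import Vale.Agent.Lib.P069.CLlp

/-!
# P069 task T2c: the key inequality

`CL` is `CL_sup` of `CLlp.lean` (which rests on `trunc_core` of `Trunc.lean`) applied to the
support function `N n` of `D n`.
-/

namespace Vale.Agent.Lib.P069

/-- The key inequality. -/
theorem CL (n : ℕ) {A : Set (List ℕ)} (hA : SufClosed A) (x y : H)
    (hx : ∀ s, s ∉ A → x s = 0) (hy : ∀ s ∈ A, y s = 0) :
    2 * N n x ^ 2 + N n y ^ 2 / 8 ≤ N n (x + y) ^ 2 + N n (x - y) ^ 2 :=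
  CL_sup n (N n) (fun z _ hu => le_N hu z) (fun _ _ h => N_le h) A hA.1 hA.2 x y hx hy

end Vale.Agent.Lib.P069
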