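import Mathlib

/-!
# P069: the asymptotic properties (statement level definitions)
-/

namespace Vale.Agent.Lib.P069

variable {X : Type} [NormedAddCommGroup X] [NormedSpace ℝ X]

/-- Closed subspaces of finite codimension. -/
def IsCof (F : Submodule ℝ X) : Prop :=
  IsClosed (F : Set X) ∧ FiniteDimensional ℝ (X ⧸ F)

/-- `N` is an equivalent norm on `X`. -/
def IsEquivNorm (N : X → ℝ) : Prop :=
  (∀ x y, N (x + y) ≤ N x + N y) ∧ (∀ (c : ℝ) x, N (c • x) = |c| * N x) ∧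
    ∃ a b : ℝ, 0 < a ∧ 0 < b ∧ ∀ x, a * ‖x‖ ≤ N x ∧ N x ≤ b * ‖x‖

/-- Asymptotic uniform convexity of the norm `N`. -/
def IsAUC (N : X → ℝ) : Prop :=
  ∀ t : ℝ, 0 < t → ∃ δ : ℝ, 0 < δ ∧ ∀ x, N x = 1 → ∃ F : Submodule ℝ X, IsCof F ∧
    ∀ y ∈ F, N y = 1 → 1 + δ ≤ N (x + t • y)

/-- Asymptotic midpoint uniform convexity of the norm `N`. -/
def IsAMUC (N : X → ℝ) : Prop :=
  ∀ t : ℝ, 0 < t → ∃ δ : ℝ, 0 < δ ∧ ∀ x, N x = 1 → ∃ F : Submodule ℝ X, IsCof F ∧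
    ∀ y ∈ F, N y = 1 → 1 + δ ≤ max (N (x + t • y)) (N (x - t • y))

/-- Reflexivity: the canonical map into the bidual is onto. -/
def IsRefl (X : Type) [NormedAddCommGroup X] [NormedSpace ℝ X] : Prop :=
  Function.Surjective (NormedSpace.inclusionInDoubleDual ℝ X)

end Vale.Agent.Lib.P069
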