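import Vale.Agent.Lib.P069.Space
import Vale.Agent.Lib.P069.Props

/-!
# P069 task T3a: the finite codimensional subspaces `Fsub S A`
-/

namespace Vale.Agent.Lib.P069

/-- The kernel of a continuous linear map into a finite dimensional space is closed of finite
codimension. -/
theorem isCof_ker {X V : Type} [NormedAddCommGroup X] [NormedSpace ℝ X]
    [NormedAddCommGroup V] [NormedSpace ℝ V] [FiniteDimensional ℝ V] (L : X →L[ℝ] V) :
    IsCof (LinearMap.ker (L : X →ₗ[ℝ] V)) := by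
  refine ⟨L.isClosed_ker, ?_⟩
  exact LinearEquiv.finiteDimensional (L : X →ₗ[ℝ] V).quotKerEquivRange.symm

/-- Vectors vanishing at the coordinates `(n, s)`, `n ∈ S`, `s ∈ A`. -/
noncomputable def FsubMap (S : Finset ℕ) (A : Finset (List ℕ)) :
    X →L[ℝ] ((S ×ˢ A : Finset (ℕ × List ℕ)) → ℝ) :=
  ContinuousLinearMap.pi (fun i : (S ×ˢ A : Finset (ℕ × List ℕ)) => coord i.1.1 i.1.2)

/-- Vectors vanishing at the coordinates `(n, s)`, `n ∈ S`, `s ∈ A`. -/
noncomputable def Fsub (S : Finset ℕ) (A : Finset (List ℕ)) : Submodule ℝ X :=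
  LinearMap.ker (FsubMap S A : X →ₗ[ℝ] ((S ×ˢ A : Finset (ℕ × List ℕ)) → ℝ))

theorem isCof_Fsub (S : Finset ℕ) (A : Finset (List ℕ)) : IsCof (Fsub S A) :=
  isCof_ker (FsubMap S A)

theorem mem_Fsub {S : Finset ℕ} {A : Finset (List ℕ)} {y : X} :
    y ∈ Fsub S A ↔ ∀ n ∈ S, ∀ s ∈ A, Xn.toH n (y n) s = 0 := by
  unfold Fsub
  rw [LinearMap.mem_ker]
  constructor
  · intro h n hn s hs
    have h1 := congrFun h ⟨(n, s), Finset.mem_product.mpr ⟨hn, hs⟩⟩
    exact h1
  · intro h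
    funext i
    have hi := Finset.mem_product.mp i.2
    exact h i.1.1 hi.1 i.1.2 hi.2

end Vale.Agent.Lib.P069
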