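import Mathlib

/-!
# P069: basic definitions

The tree is `List ℕ` (child `k :: p`, ancestors are suffixes).  `H` is the real Hilbert space
of square summable functions on the tree, `psum f r` the sum of `f` along the branch from the
root to `r`, `D n` the set of test functionals and `N n` the dual norm.
-/

namespace Vale.Agent.Lib.P069

open scoped ENNReal

/-- The base Hilbert space. -/
abbrev H : Type := lp (fun _ : List ℕ => ℝ) 2

/-- Branch sums. -/
def psum (f : List ℕ → ℝ) : List ℕ → ℝ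
  | [] => 0
  | (k :: p) => f (k :: p) + psum f p

@[simp] theorem psum_nil (f : List ℕ → ℝ) : psum f [] = 0 := rfl
@[simp] theorem psum_cons (f : List ℕ → ℝ) (k : ℕ) (p : List ℕ) :
    psum f (k :: p) = f (k :: p) + psum f p := rfl

/-- Test functionals of level `n`. -/
def D (n : ℕ) : Set H := {f | ‖f‖ ≤ 1 ∧ ∀ r : List ℕ, r.length ≤ n → |psum f r| ≤ 1}

/-- The norm of level `n`. -/
noncomputable def N (n : ℕ) (x : H) : ℝ := sSup ((fun f : H => inner ℝ f x) '' D n)

/-! ### Hilbert space interface -/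

theorem inner_eq_tsum (f x : H) : inner ℝ f x = ∑' s, f s * x s := by
  rw [lp.inner_eq_tsum]
  refine tsum_congr fun s => ?_
  simp [mul_comm]

theorem hasSum_inner (f x : H) : HasSum (fun s => f s * x s) (inner ℝ f x) := by
  have := lp.hasSum_inner (𝕜 := ℝ) f x
  simpa [mul_comm] using this

theorem norm_sq_eq_tsum (f : H) : ‖f‖ ^ 2 = ∑' s, f s ^ 2 := by
  have := lp.norm_rpow_eq_tsum (p := 2) (by norm_num) f
  simpa using this

theorem hasSum_norm_sq (f : H) : HasSum (fun s => f s ^ 2) (‖f‖ ^ 2) := by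
  have := lp.hasSum_norm (p := 2) (by norm_num) f
  simpa using this

theorem abs_apply_le_norm (f : H) (s : List ℕ) : |f s| ≤ ‖f‖ := by
  have := lp.norm_apply_le_norm (p := 2) (by norm_num) f s
  simpa using this

/-- A function dominated by an element of `H` is in `H`, with smaller norm. -/
theorem exists_dominated (g : List ℕ → ℝ) (h : H) (hg : ∀ s, |g s| ≤ |h s|) :
    ∃ g' : H, (∀ s, g' s = g s) ∧ ‖g'‖ ≤ ‖h‖ := by
  have hm : Memℓp g 2 := (lp.memℓp h).mono' (fun s => by simpa using hg s)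
  refine ⟨⟨g, hm⟩, fun s => rfl, ?_⟩
  exact lp.norm_mono (by norm_num) (fun s => by simpa using hg s)

theorem inner_eq_zero_of_disjoint (f x : H) (h : ∀ s, f s = 0 ∨ x s = 0) : inner ℝ f x = 0 := by
  rw [inner_eq_tsum]
  have : (fun s => f s * x s) = fun _ => 0 := by
    funext s
    rcases h s with h | h <;> simp [h]
  rw [this, tsum_zero]

theorem inner_congr_left (f g x : H) (h : ∀ s, f s = g s ∨ x s = 0) :
    inner ℝ f x = inner ℝ g x := by
  rw [inner_eq_tsum, inner_eq_tsum]
  refine tsum_congr fun s => ?_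
  rcases h s with h | h <;> simp [h]

/-! ### psum is linear -/

theorem psum_add (f g : List ℕ → ℝ) (r : List ℕ) : psum (f + g) r = psum f r + psum g r := by
  induction r with
  | nil => simp
  | cons k p ih => simp [ih]; ring

theorem psum_smul (c : ℝ) (f : List ℕ → ℝ) (r : List ℕ) : psum (c • f) r = c * psum f r := by
  induction r with
  | nil => simp
  | cons k p ih => simp [ih]; ring

theorem psum_neg (f : List ℕ → ℝ) (r : List ℕ) : psum (-f) r = - psum f r := by
  induction r with
  | nil => simp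
  | cons k p ih => simp [ih]; ring

theorem psum_congr {f g : List ℕ → ℝ} (h : ∀ s, f s = g s) (r : List ℕ) : psum f r = psum g r := by
  have : f = g := funext h
  rw [this]

theorem abs_psum_le (f : H) (r : List ℕ) : |psum f r| ≤ r.length * ‖f‖ := by
  induction r with
  | nil => simp
  | cons k p ih =>
    have h1 := abs_apply_le_norm f (k :: p)
    have h2 := abs_add_le (f (k :: p)) (psum f p)
    simp only [psum_cons, List.length_cons, Nat.cast_add, Nat.cast_one]
    nlinarith

/-! ### the set `D n` -/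

theorem psum_zero (r : List ℕ) : psum (fun _ => 0) r = 0 := by
  induction r with
  | nil => rfl
  | cons k p ih => rw [psum_cons, ih, add_zero]

theorem zero_mem_D (n : ℕ) : (0 : H) ∈ D n := by
  refine ⟨by simp, fun r _ => ?_⟩
  have : psum (⇑(0 : H)) r = 0 := psum_zero r
  rw [this]; simp

theorem neg_mem_D {n : ℕ} {f : H} (hf : f ∈ D n) : -f ∈ D n := by
  refine ⟨by simpa using hf.1, fun r hr => ?_⟩
  have : psum (⇑(-f)) r = - psum f r := by
    rw [lp.coeFn_neg, psum_neg]
  rw [this, abs_neg]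
  exact hf.2 r hr

theorem small_mem_D (n : ℕ) (f : H) (hf : ((n : ℝ) + 1) * ‖f‖ ≤ 1) : f ∈ D n := by
  have h0 := norm_nonneg f
  refine ⟨by nlinarith, fun r hr => ?_⟩
  have h1 := abs_psum_le f r
  have h2 : (r.length : ℝ) ≤ n := by exact_mod_cast hr
  nlinarith

theorem inner_le_norm_of_mem_D {n : ℕ} {f : H} (hf : f ∈ D n) (x : H) : inner ℝ f x ≤ ‖x‖ := by
  have h1 := real_inner_le_norm f x
  have h2 := hf.1
  have h3 := norm_nonneg x
  nlinarith

theorem bddAbove_image (n : ℕ) (x : H) : BddAbove ((fun f : H => inner ℝ f x) '' D n) := by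
  refine ⟨‖x‖, ?_⟩
  rintro _ ⟨f, hf, rfl⟩
  exact inner_le_norm_of_mem_D hf x

/-! ### the norm `N n` -/

theorem le_N {n : ℕ} {f : H} (hf : f ∈ D n) (x : H) : inner ℝ f x ≤ N n x :=
  le_csSup (bddAbove_image n x) ⟨f, hf, rfl⟩

theorem N_le {n : ℕ} {x : H} {c : ℝ} (h : ∀ f ∈ D n, inner ℝ f x ≤ c) : N n x ≤ c := by
  refine csSup_le ⟨_, ⟨0, zero_mem_D n, rfl⟩⟩ ?_
  rintro _ ⟨f, hf, rfl⟩
  exact h f hf

theorem N_nonneg (n : ℕ) (x : H) : 0 ≤ N n x := by
  have := le_N (zero_mem_D n) x
  simpa using this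

theorem N_le_norm (n : ℕ) (x : H) : N n x ≤ ‖x‖ :=
  N_le fun _ hf => inner_le_norm_of_mem_D hf x

theorem norm_le_N (n : ℕ) (x : H) : ‖x‖ ≤ ((n : ℝ) + 1) * N n x := by
  by_cases hx : x = 0
  · subst hx
    have := N_nonneg n (0 : H)
    simp only [norm_zero]
    positivity
  have hx' : 0 < ‖x‖ := norm_pos_iff.mpr hx
  have hn : (0 : ℝ) < (n : ℝ) + 1 := by positivity
  set c : ℝ := (((n : ℝ) + 1) * ‖x‖)⁻¹ with hc
  have hcpos : 0 < c := by positivity
  have hmem : c • x ∈ D n := by
    apply small_mem_D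
    rw [norm_smul, Real.norm_eq_abs, abs_of_pos hcpos, hc]
    apply le_of_eq
    field_simp
  have h1 := le_N hmem x
  rw [real_inner_smul_left, real_inner_self_eq_norm_sq] at h1
  have h2 : c * ‖x‖ ^ 2 = ‖x‖ / ((n : ℝ) + 1) := by
    rw [hc]; field_simp
  rw [h2, div_le_iff₀ hn] at h1
  linarith

theorem N_zero (n : ℕ) : N n 0 = 0 := by
  apply le_antisymm _ (N_nonneg n 0)
  simpa using N_le_norm n 0

theorem N_add_le (n : ℕ) (x y : H) : N n (x + y) ≤ N n x + N n y := by
  refine N_le fun f hf => ?_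
  rw [inner_add_right]
  exact add_le_add (le_N hf x) (le_N hf y)

theorem N_neg (n : ℕ) (x : H) : N n (-x) = N n x := by
  apply le_antisymm
  · refine N_le fun f hf => ?_
    have := le_N (neg_mem_D hf) x
    simpa using this
  · refine N_le fun f hf => ?_
    have := le_N (neg_mem_D hf) (-x)
    simpa using this

theorem N_smul_of_nonneg (n : ℕ) {c : ℝ} (hc : 0 ≤ c) (x : H) : N n (c • x) = c * N n x := by
  rcases hc.eq_or_lt with rfl | hc
  · simp [N_zero]
  apply le_antisymm
  · refine N_le fun f hf => ?_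
    rw [real_inner_smul_right]
    exact mul_le_mul_of_nonneg_left (le_N hf x) hc.le
  · rw [← le_div_iff₀' hc]
    refine N_le fun f hf => ?_
    rw [le_div_iff₀' hc]
    have := le_N hf (c • x)
    rwa [real_inner_smul_right] at this

theorem N_smul (n : ℕ) (c : ℝ) (x : H) : N n (c • x) = |c| * N n x := by
  rcases le_total 0 c with hc | hc
  · rw [abs_of_nonneg hc, N_smul_of_nonneg n hc]
  · rw [abs_of_nonpos hc, ← N_smul_of_nonneg n (neg_nonneg.mpr hc), ← N_neg, neg_smul]

theorem N_eq_zero {n : ℕ} {x : H} (h : N n x = 0) : x = 0 := by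
  have := norm_le_N n x
  rw [h, mul_zero] at this
  exact norm_le_zero_iff.mp this

/-- For every `ε > 0` there is a test functional almost norming `x`. -/
theorem exists_mem_D_lt (n : ℕ) (x : H) {c : ℝ} (hc : c < N n x) :
    ∃ f ∈ D n, c < inner ℝ f x := by
  have hne : ((fun f : H => inner ℝ f x) '' D n).Nonempty := ⟨_, ⟨0, zero_mem_D n, rfl⟩⟩
  obtain ⟨_, ⟨f, hf, rfl⟩, h⟩ := exists_lt_of_lt_csSup hne hc
  exact ⟨f, hf, h⟩

end Vale.Agent.Lib.P069
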