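import Vale.Agent.Lib.P069.Props

/-!
# P069 task T7a: a space with no equivalent AUC norm is infinite dimensional
-/

namespace Vale.Agent.Lib.P069

/-- In a finite dimensional space the zero subspace has finite codimension, so every norm is
(vacuously) asymptotically uniformly convex.  Hence a space without an equivalent
asymptotically uniformly convex norm is infinite dimensional. -/
theorem not_finiteDimensional_of_not_AUC {X : Type} [NormedAddCommGroup X] [NormedSpace ℝ X]
    (h : ¬ ∃ N : X → ℝ, IsEquivNorm N ∧ IsAUC N) : ¬ FiniteDimensional ℝ X := by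
  intro hfd
  apply h
  refine ⟨fun x => ‖x‖, ⟨fun x y => norm_add_le x y, fun c x => ?_, 1, 1, one_pos, one_pos,
    fun x => ⟨by simp, by simp⟩⟩, ?_⟩
  · simp [norm_smul]
  · intro t _
    refine ⟨1, one_pos, fun x _ => ⟨⊥, ⟨?_, ?_⟩, ?_⟩⟩
    · simp
    · infer_instance
    · intro y hy hy1
      rw [Submodule.mem_bot] at hy
      subst hy
      simp at hy1

end Vale.Agent.Lib.P069
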