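import Mathlib

/-!
Generic lemma for P069: a weakly null sequence gets arbitrarily close (in norm) to any closed
subspace of finite codimension.
-/

namespace Vale.Agent.P069

open Filter Topology

variable {X : Type*} [NormedAddCommGroup X] [NormedSpace ℝ X]

/-- In a finite-dimensional normed space a weakly null sequence is norm null. -/
theorem tendsto_zero_of_weak_findim {Q : Type*} [NormedAddCommGroup Q] [NormedSpace ℝ Q]
    [FiniteDimensional ℝ Q] (u : ℕ → Q)
    (hu : ∀ φ : Q →L[ℝ] ℝ, Tendsto (fun k => φ (u k)) atTop (𝓝 0)) :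
    Tendsto u atTop (𝓝 0) := by
  classical
  let b := Module.finBasis ℝ Q
  have h1 : ∀ k, u k = ∑ i, (b.repr (u k) i) • b i := fun k => (b.sum_repr (u k)).symm
  have h2 : ∀ i, Tendsto (fun k => (b.repr (u k) i) • b i) atTop (𝓝 0) := by
    intro i
    have h3 := hu (LinearMap.toContinuousLinearMap (b.coord i))
    have h4 : Tendsto (fun k => (b.repr (u k) i)) atTop (𝓝 0) := by
      simpa using h3
    simpa using h4.smul_const (b i)
  have h5 : Tendsto (fun k => ∑ i, (b.repr (u k) i) • b i) atTop (𝓝 (∑ _i : Fin _, (0 : Q))) :=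
    tendsto_finsetSum _ (fun i _ => h2 i)
  simp only [Finset.sum_const_zero] at h5
  exact h5.congr (fun k => (h1 k).symm)

/-- A weakly null sequence gets arbitrarily close to a closed finite-codimensional subspace:
eventually there is `z ∈ F` with `‖e k - z‖ < ε`. -/
theorem eventually_near_of_weak_null (F : Submodule ℝ X) (hF : IsClosed (F : Set X))
    [FiniteDimensional ℝ (X ⧸ F)] (e : ℕ → X)
    (he : ∀ φ : X →L[ℝ] ℝ, Tendsto (fun k => φ (e k)) atTop (𝓝 0))
    {ε : ℝ} (hε : 0 < ε) :
    ∀ᶠ k in atTop, ∃ z ∈ F, ‖e k - z‖ < ε := by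
  have : IsClosed (F : Set X) := hF
  have h1 : Tendsto (fun k => (F.mkQL (e k) : X ⧸ F)) atTop (𝓝 0) := by
    apply tendsto_zero_of_weak_findim
    intro φ
    exact he (φ.comp F.mkQL)
  have h2 : ∀ᶠ k in atTop, ‖(F.mkQL (e k) : X ⧸ F)‖ < ε := by
    have := (tendsto_zero_iff_norm_tendsto_zero.mp h1)
    exact this.eventually (gt_mem_nhds hε)
  filter_upwards [h2] with k hk
  obtain ⟨m, hm, hm'⟩ := QuotientAddGroup.norm_lt_iff.mp hk
  refine ⟨e k - m, ?_, by simpa using hm'⟩
  have : (Submodule.Quotient.mk (e k) : X ⧸ F) = Submodule.Quotient.mk m := by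
    exact hm.symm
  exact (Submodule.Quotient.eq F).mp this

end Vale.Agent.P069
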