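import Mathlib
import Vale.Agent.Lib.P069.WeakNull

/-!
Generic growth argument for P069: a space containing, for every `n`, a weakly null tree of
height `n` with increments of norm at least one and branch sums of norm at most one has no
equivalent asymptotically uniformly convex norm.
-/

namespace Vale.Agent.P069

open Filter Topology

variable {X : Type*} [NormedAddCommGroup X] [NormedSpace ℝ X]

/-- Branch sums of a family indexed by the tree `List ℕ` (the root does not contribute). -/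
def bsum (e : List ℕ → X) : List ℕ → X
  | [] => 0
  | (k :: p) => e (k :: p) + bsum e p

/-- Convexity step: if `N (x + t0 y) ≥ 1 + d` where `N x = 1`, then the same holds for all
`s ≥ t0`. -/
theorem convex_step (N : X → ℝ) (hadd : ∀ x y, N (x + y) ≤ N x + N y)
    (hsmul : ∀ (c : ℝ) x, N (c • x) = |c| * N x) {x y : X} {t0 s d : ℝ} (ht0 : 0 < t0)
    (hs : t0 ≤ s) (hd : 0 ≤ d) (hx : N x = 1) (h : 1 + d ≤ N (x + t0 • y)) :
    1 + d ≤ N (x + s • y) := by
  have hs0 : 0 < s := lt_of_lt_of_le ht0 hs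
  set l : ℝ := t0 / s with hl
  have hl0 : 0 < l := div_pos ht0 hs0
  have hl1 : l ≤ 1 := (div_le_one hs0).mpr hs
  have hls : l * s = t0 := by rw [hl]; field_simp
  have e1 : x + t0 • y = (1 - l) • x + l • (x + s • y) := by
    rw [smul_add, smul_smul, hls, sub_smul, one_smul]; abel
  have h2 : N (x + t0 • y) ≤ (1 - l) * 1 + l * N (x + s • y) := by
    rw [e1]
    refine (hadd _ _).trans ?_
    rw [hsmul, hsmul, hx, abs_of_nonneg (by linarith : (0 : ℝ) ≤ 1 - l), abs_of_pos hl0]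
  have h3 : 1 + d ≤ (1 - l) + l * N (x + s • y) := by linarith
  have h4 : l * (1 + d) ≤ l * N (x + s • y) := by nlinarith
  exact le_of_mul_le_mul_left h4 hl0

/-- One step of the growth argument. -/
theorem one_step (N : X → ℝ) (hadd : ∀ x y, N (x + y) ≤ N x + N y)
    (hsmul : ∀ (c : ℝ) x, N (c • x) = |c| * N x) {a b d : ℝ} (ha : 0 < a) (hb : 0 < b)
    (hd : 0 < d) (hlo : ∀ x, a * ‖x‖ ≤ N x) (hhi : ∀ x, N x ≤ b * ‖x‖)
    (hA : ∀ x, N x = 1 → ∃ F : Submodule ℝ X, IsClosed (F : Set X) ∧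
      FiniteDimensional ℝ (X ⧸ F) ∧ ∀ y ∈ F, N y = 1 → 1 + d ≤ N (x + (a / (2 * b)) • y))
    {x : X} (hx0 : 0 < N x) (hxb : N x ≤ b) (u : ℕ → X) (hu1 : ∀ k, 1 ≤ ‖u k‖)
    (hu : ∀ φ : X →L[ℝ] ℝ, Tendsto (fun k => φ (u k)) atTop (𝓝 0)) :
    ∃ k, (1 + d / 2) * N x ≤ N (x + u k) := by
  set c : ℝ := N x with hc
  have hxh : N (c⁻¹ • x) = 1 := by
    rw [hsmul, abs_of_pos (inv_pos.mpr hx0), ← hc]; field_simp
  obtain ⟨F, hFc, hFd, hF⟩ := hA _ hxh
  set ε : ℝ := min (a / (2 * b)) (d * c / (2 * b)) with hε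
  have hε0 : 0 < ε := lt_min (by positivity) (by positivity)
  have hε1 : b * ε ≤ a / 2 := by
    have : ε ≤ a / (2 * b) := min_le_left _ _
    calc b * ε ≤ b * (a / (2 * b)) := by gcongr
      _ = a / 2 := by field_simp
  have hε2 : b * ε ≤ d * c / 2 := by
    have : ε ≤ d * c / (2 * b) := min_le_right _ _
    calc b * ε ≤ b * (d * c / (2 * b)) := by gcongr
      _ = d * c / 2 := by field_simp
  obtain ⟨k, z, hzF, hkz⟩ := (eventually_near_of_weak_null F hFc u hu hε0).exists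
  refine ⟨k, ?_⟩
  have h1 : N (u k - z) ≤ b * ε := (hhi _).trans (by gcongr)
  have h2 : a ≤ N (u k) := by
    have := hlo (u k)
    have h3 : a * 1 ≤ a * ‖u k‖ := by gcongr; exact hu1 k
    linarith
  have h3 : N (u k) ≤ N (u k - z) + N z := by
    have := hadd (u k - z) z
    simpa using this
  have hz : a / 2 ≤ N z := by linarith
  have hz0 : 0 < N z := by linarith
  have hy1 : N ((N z)⁻¹ • z) = 1 := by
    rw [hsmul, abs_of_pos (inv_pos.mpr hz0)]; field_simp
  have hyF : (N z)⁻¹ • z ∈ F := F.smul_mem _ hzF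
  have hs : a / (2 * b) ≤ N z / c := by
    rw [div_le_div_iff₀ (by positivity) hx0]
    nlinarith
  have h4 := convex_step N hadd hsmul (by positivity) hs hd.le hxh (hF _ hyF hy1)
  have e1 : c⁻¹ • x + (N z / c) • (N z)⁻¹ • z = c⁻¹ • (x + z) := by
    rw [smul_add, smul_smul]
    congr 2
    field_simp
  rw [e1, hsmul, abs_of_pos (inv_pos.mpr hx0)] at h4
  have h5 : (1 + d) * c ≤ N (x + z) := by
    have := mul_le_mul_of_nonneg_left h4 hx0.le
    rw [← mul_assoc, mul_inv_cancel₀ hx0.ne', one_mul] at this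
    linarith
  have h6 : N (x + z) ≤ N (x + u k) + N (u k - z) := by
    have h7 := hadd (x + u k) ((-1 : ℝ) • (u k - z))
    rw [hsmul] at h7
    have e2 : x + u k + (-1 : ℝ) • (u k - z) = x + z := by
      rw [neg_one_smul]; abel
    rw [e2] at h7
    simpa using h7
  nlinarith

/-- The growth along a well chosen branch. -/
theorem growth (N : X → ℝ) (hadd : ∀ x y, N (x + y) ≤ N x + N y)
    (hsmul : ∀ (c : ℝ) x, N (c • x) = |c| * N x) {a b d : ℝ} (ha : 0 < a) (hb : 0 < b)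
    (hd : 0 < d) (hlo : ∀ x, a * ‖x‖ ≤ N x) (hhi : ∀ x, N x ≤ b * ‖x‖)
    (hA : ∀ x, N x = 1 → ∃ F : Submodule ℝ X, IsClosed (F : Set X) ∧
      FiniteDimensional ℝ (X ⧸ F) ∧ ∀ y ∈ F, N y = 1 → 1 + d ≤ N (x + (a / (2 * b)) • y))
    (e : List ℕ → X) (he1 : ∀ s, 1 ≤ ‖e s‖)
    (hw : ∀ (p : List ℕ) (φ : X →L[ℝ] ℝ), Tendsto (fun k => φ (e (k :: p))) atTop (𝓝 0))
    (n : ℕ) (hn : ∀ r : List ℕ, r.length ≤ n → ‖bsum e r‖ ≤ 1) :
    ∀ j, j + 1 ≤ n → ∃ r : List ℕ, r.length = j + 1 ∧ a * (1 + d / 2) ^ j ≤ N (bsum e r) := by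
  intro j
  induction j with
  | zero =>
    intro _
    refine ⟨[0], rfl, ?_⟩
    have h1 : bsum e [0] = e [0] := by simp [bsum]
    rw [h1, pow_zero, mul_one]
    have := hlo (e [0])
    have h3 : a * 1 ≤ a * ‖e [0]‖ := by gcongr; exact he1 _
    linarith
  | succ j ih =>
    intro hj
    obtain ⟨r, hr, hrN⟩ := ih (by omega)
    have hpos : 0 < a * (1 + d / 2) ^ j := by positivity
    have hx0 : 0 < N (bsum e r) := lt_of_lt_of_le hpos hrN
    have hxb : N (bsum e r) ≤ b := by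
      have h1 := hn r (by omega)
      calc N (bsum e r) ≤ b * ‖bsum e r‖ := hhi _
        _ ≤ b * 1 := by gcongr
        _ = b := mul_one b
    obtain ⟨k, hk⟩ := one_step N hadd hsmul ha hb hd hlo hhi hA hx0 hxb
      (fun k => e (k :: r)) (fun k => he1 _) (hw r)
    refine ⟨k :: r, by simp [hr], ?_⟩
    have h2 : bsum e (k :: r) = bsum e r + e (k :: r) := by
      simp [bsum, add_comm]
    rw [h2]
    refine le_trans ?_ hk
    rw [pow_succ]
    have : (1 + d / 2) * (a * (1 + d / 2) ^ j) ≤ (1 + d / 2) * N (bsum e r) := by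
      gcongr
    linarith

/-- **Generic non-AUC theorem.**  If a normed space contains for every `n` a weakly null tree of
height `n` with increments of norm at least one and branch sums of norm at most one, then no
equivalent norm `N` satisfies the (unfolded) asymptotic uniform convexity condition. -/
theorem not_auc_of_trees (N : X → ℝ) (hadd : ∀ x y, N (x + y) ≤ N x + N y)
    (hsmul : ∀ (c : ℝ) x, N (c • x) = |c| * N x) {a b : ℝ} (ha : 0 < a)
    (hlo : ∀ x, a * ‖x‖ ≤ N x) (hhi : ∀ x, N x ≤ b * ‖x‖)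
    (htree : ∀ n : ℕ, ∃ e : List ℕ → X, (∀ s, 1 ≤ ‖e s‖) ∧
      (∀ (p : List ℕ) (φ : X →L[ℝ] ℝ), Tendsto (fun k => φ (e (k :: p))) atTop (𝓝 0)) ∧
      ∀ r : List ℕ, r.length ≤ n → ‖bsum e r‖ ≤ 1) :
    ¬ (∀ t : ℝ, 0 < t → ∃ d : ℝ, 0 < d ∧ ∀ x, N x = 1 → ∃ F : Submodule ℝ X,
      IsClosed (F : Set X) ∧ FiniteDimensional ℝ (X ⧸ F) ∧
        ∀ y ∈ F, N y = 1 → 1 + d ≤ N (x + t • y)) := by
  intro hAUC
  have hb : 0 < b := by
    obtain ⟨e, he1, -, -⟩ := htree 0
    have h1 := hlo (e [])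
    have h2 := hhi (e [])
    have h3 := he1 []
    by_contra hb
    rw [not_lt] at hb
    nlinarith
  obtain ⟨d, hd, hA⟩ := hAUC (a / (2 * b)) (by positivity)
  obtain ⟨j, hj⟩ := pow_unbounded_of_one_lt (b / a) (by linarith : (1 : ℝ) < 1 + d / 2)
  obtain ⟨e, he1, hw, hn⟩ := htree (j + 1)
  obtain ⟨r, hr, hrN⟩ := growth N hadd hsmul ha hb hd hlo hhi hA e he1 hw (j + 1) hn j le_rfl
  have h1 : N (bsum e r) ≤ b := by
    have h1 := hn r (by omega)
    calc N (bsum e r) ≤ b * ‖bsum e r‖ := hhi _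
      _ ≤ b * 1 := by gcongr
      _ = b := mul_one b
  have h2 : b < a * (1 + d / 2) ^ j := by
    rw [div_lt_iff₀ ha] at hj
    linarith
  linarith

end Vale.Agent.P069
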