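import Vale.Agent.Lib.P069.Tree
import Vale.Agent.Lib.P069.Props
import Vale.Agent.Lib.P069.Growth

/-!
# P069 task T5b (second half): `X` has no equivalent asymptotically uniformly convex norm
-/

namespace Vale.Agent.Lib.P069

/-- The increments of the tree in the `n`-th summand. -/
noncomputable def einc (n : ℕ) (s : List ℕ) : X := lp.single 2 n ((Xn.toH n).symm (evec s))

theorem norm_einc (n : ℕ) (s : List ℕ) : ‖einc n s‖ = 1 := by
  unfold einc
  rw [lp.norm_single (by norm_num), Xn.norm_symm, N_evec]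

theorem bsum_einc (n : ℕ) (r : List ℕ) : Vale.Agent.P069.bsum (einc n) r = ztree n r := by
  induction r with
  | nil => rw [ztree_nil]; rfl
  | cons k p ih =>
    have h := ztree_cons_sub n k p
    rw [Vale.Agent.P069.bsum, ih]
    unfold einc
    rw [← h]
    abel

theorem X_not_AUC : ¬ ∃ N : X → ℝ, IsEquivNorm N ∧ IsAUC N := by
  rintro ⟨N, ⟨hadd, hsmul, a, b, ha, -, hab⟩, hAUC⟩
  refine Vale.Agent.P069.not_auc_of_trees N hadd hsmul ha (fun x => (hab x).1)
    (fun x => (hab x).2) (fun n => ⟨einc n, fun s => (norm_einc n s).ge, fun p φ => ?_,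
      fun r hr => ?_⟩) ?_
  · refine (ztree_weakly_null n p φ).congr (fun k => ?_)
    rw [ztree_cons_sub]
    rfl
  · rw [bsum_einc]
    exact norm_ztree_le hr
  · intro t ht
    obtain ⟨d, hd, h⟩ := hAUC t ht
    refine ⟨d, hd, fun x hx => ?_⟩
    obtain ⟨F, ⟨hF1, hF2⟩, hF3⟩ := h x hx
    exact ⟨F, hF1, hF2, hF3⟩

end Vale.Agent.Lib.P069
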