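import Mathlib

/-!
# P069: reflexivity of Hilbert spaces, of isomorphic copies and of `l2`-sums
-/

namespace Vale.Agent.Lib.P069

open scoped ENNReal NNReal

/-- A real normed space is reflexive if the canonical map into its bidual is onto. -/
def Reflexive (X : Type*) [NormedAddCommGroup X] [NormedSpace ℝ X] : Prop :=
  Function.Surjective (NormedSpace.inclusionInDoubleDual ℝ X)

section equiv

variable {X Y : Type*} [NormedAddCommGroup X] [NormedSpace ℝ X]
  [NormedAddCommGroup Y] [NormedSpace ℝ Y]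

theorem Reflexive.of_equiv (e : X ≃L[ℝ] Y) (h : Reflexive X) : Reflexive Y := by
  intro Φ
  obtain ⟨x, hx⟩ := h (Φ.comp ((e.symm : Y →L[ℝ] X).precomp ℝ))
  refine ⟨e x, ?_⟩
  ext ψ
  have h1 := congrArg (fun F => F (ψ.comp (e : X →L[ℝ] Y))) hx
  simp only [NormedSpace.dual_def, ContinuousLinearMap.comp_apply] at h1
  rw [NormedSpace.dual_def]
  have h2 : ((e.symm : Y →L[ℝ] X).precomp ℝ) (ψ.comp (e : X →L[ℝ] Y)) = ψ := by
    ext y
    simp
  rw [h2] at h1
  simpa using h1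

theorem reflexive_of_hilbert (H : Type*) [NormedAddCommGroup H] [InnerProductSpace ℝ H]
    [CompleteSpace H] : Reflexive H := by
  intro Φ
  let L : H →L[ℝ] ℝ := LinearMap.mkContinuous
    { toFun := fun v => Φ (InnerProductSpace.toDual ℝ H v)
      map_add' := by intro a b; simp
      map_smul' := by intro c a; simp }
    ‖Φ‖ (by intro v; simpa using Φ.le_opNorm (InnerProductSpace.toDual ℝ H v))
  refine ⟨(InnerProductSpace.toDual ℝ H).symm L, ?_⟩
  ext ψ
  obtain ⟨v, rfl⟩ := (InnerProductSpace.toDual ℝ H).surjective ψ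
  rw [NormedSpace.dual_def, InnerProductSpace.toDual_apply_apply, real_inner_comm,
    InnerProductSpace.toDual_symm_apply]
  rfl

end equiv

theorem le_sq_of_le_mul {S c n : ℝ} (hS : 0 ≤ S) (h1 : S ≤ c * n) (h2 : n ^ 2 ≤ S) :
    S ≤ c ^ 2 := by
  have h3 : S * S ≤ (c * n) * (c * n) := mul_self_le_mul_self hS h1
  have h4 : c ^ 2 * n ^ 2 ≤ c ^ 2 * S := mul_le_mul_of_nonneg_left h2 (sq_nonneg c)
  by_contra hlt
  rw [not_le] at hlt
  have hpos : 0 < S := lt_of_le_of_lt (sq_nonneg c) hlt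
  have h5 : c ^ 2 * S < S * S := mul_lt_mul_of_pos_right hlt hpos
  nlinarith

section sum

set_option linter.unusedSectionVars false

variable {ι : Type*} [DecidableEq ι] {E : ι → Type*} [∀ i, NormedAddCommGroup (E i)]
  [∀ i, NormedSpace ℝ (E i)]

/-- The natural pairing of the `l2`-sum of the duals with the `l2`-sum. -/
noncomputable def pair : lp (fun i => StrongDual ℝ (E i)) 2 →L[ℝ] StrongDual ℝ (lp E 2) :=
  lp.dualPairing 2 2 (fun i => ContinuousLinearMap.id ℝ (StrongDual ℝ (E i))) (K := 1)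
    (fun i => by simpa using ContinuousLinearMap.norm_id_le)

theorem pair_apply (g : lp (fun i => StrongDual ℝ (E i)) 2) (x : lp E 2) :
    pair g x = ∑' i, g i (x i) := rfl

theorem norm_pair_le : ‖pair (E := E)‖ ≤ 1 := by
  unfold pair
  simpa using lp.norm_dualPairing (p := 2) (q := 2)
    (fun i => ContinuousLinearMap.id ℝ (StrongDual ℝ (E i))) (K := 1)
    (fun i => by simpa using ContinuousLinearMap.norm_id_le)

theorem norm_pair_apply_le (g : lp (fun i => StrongDual ℝ (E i)) 2) : ‖pair g‖ ≤ ‖g‖ := by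
  simpa using (pair (E := E)).le_of_opNorm_le norm_pair_le g

theorem pair_single_apply (i : ι) (φ : StrongDual ℝ (E i)) (x : lp E 2) :
    pair (lp.single 2 i φ) x = φ (x i) := by
  rw [pair_apply, tsum_eq_single i]
  · simp [lp.single_apply]
  · intro j hj
    simp [lp.single_apply, hj]

theorem norm_sq_sum_single {F : ι → Type*} [∀ i, NormedAddCommGroup (F i)]
    (f : ∀ i, F i) (s : Finset ι) :
    ‖∑ i ∈ s, lp.single (E := F) 2 i (f i)‖ ^ 2 = ∑ i ∈ s, ‖f i‖ ^ 2 := by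
  have h := lp.norm_sum_single (E := F) (p := 2) (by simp) f s
  simpa using h

theorem memℓp_two_of_sq {F : ι → Type*} [∀ i, NormedAddCommGroup (F i)] {C : ℝ}
    {f : ∀ i, F i} (h : ∀ s : Finset ι, ∑ i ∈ s, ‖f i‖ ^ 2 ≤ C) : Memℓp f 2 := by
  apply memℓp_gen' (C := C)
  intro s
  simpa using h s

theorem exists_norming {X : Type*} [NormedAddCommGroup X] [NormedSpace ℝ X] (h : Reflexive X)
    (g : StrongDual ℝ X) : ∃ x : X, ‖x‖ ≤ 1 ∧ g x = ‖g‖ := by
  obtain ⟨Φ, hΦ, hg⟩ := exists_dual_vector'' ℝ g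
  obtain ⟨x, rfl⟩ := h Φ
  refine ⟨x, ?_, ?_⟩
  · have := (NormedSpace.inclusionInDoubleDualLi (E := X) ℝ).norm_map x
    rw [← this]
    exact hΦ
  · simpa [NormedSpace.dual_def] using hg

theorem exists_pair_eq (h : ∀ i, Reflexive (E i)) (ψ : StrongDual ℝ (lp E 2)) :
    ∃ g, pair g = ψ := by
  set g : ∀ i, StrongDual ℝ (E i) := fun i => ψ.comp (lp.singleContinuousLinearMap ℝ E 2 i)
    with hg
  have hgx : ∀ i (x : E i), g i x = ψ (lp.single 2 i x) := fun i x => rfl
  choose x hx1 hx2 using fun i => exists_norming (h i) (g i)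
  have hmem : Memℓp g 2 := by
    apply memℓp_two_of_sq (C := ‖ψ‖ ^ 2)
    intro s
    set y : lp E 2 := ∑ i ∈ s, lp.single 2 i (‖g i‖ • x i) with hy
    have hy2 : ‖y‖ ^ 2 ≤ ∑ i ∈ s, ‖g i‖ ^ 2 := by
      rw [hy, norm_sq_sum_single]
      apply Finset.sum_le_sum
      intro i _
      rw [norm_smul, norm_norm]
      have : ‖g i‖ * ‖x i‖ ≤ ‖g i‖ * 1 := mul_le_mul_of_nonneg_left (hx1 i) (norm_nonneg _)
      rw [mul_one] at this
      exact pow_le_pow_left₀ (by positivity) this 2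
    have hψ : ψ y = ∑ i ∈ s, ‖g i‖ ^ 2 := by
      rw [hy, map_sum]
      apply Finset.sum_congr rfl
      intro i _
      rw [← hgx, map_smul, hx2, smul_eq_mul, sq]
    apply le_sq_of_le_mul (n := ‖y‖) (Finset.sum_nonneg fun i _ => by positivity) _ hy2
    rw [← hψ]
    exact (le_abs_self _).trans (ψ.le_opNorm y)
  refine ⟨⟨g, hmem⟩, ?_⟩
  ext z
  rw [pair_apply]
  have hs := (lp.hasSum_single (p := 2) (by simp) z).mapL ψ
  exact hs.tsum_eq

theorem reflexive_lp_two (h : ∀ i, Reflexive (E i)) : Reflexive (lp E 2) := by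
  intro Φ
  have hx : ∀ i, ∃ x : E i, ∀ φ : StrongDual ℝ (E i), φ x = Φ (pair (lp.single 2 i φ)) := by
    intro i
    obtain ⟨x, hx⟩ := h i (Φ.comp (pair.comp
      (lp.singleContinuousLinearMap ℝ (fun i => StrongDual ℝ (E i)) 2 i)))
    refine ⟨x, fun φ => ?_⟩
    have := congrArg (fun F => F φ) hx
    simpa [NormedSpace.dual_def] using this
  choose x hx using hx
  choose φ hφ1 hφ2 using fun i => exists_dual_vector'' ℝ (x i)
  have hmem : Memℓp x 2 := by
    apply memℓp_two_of_sq (C := ‖Φ‖ ^ 2)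
    intro s
    set g : lp (fun i => StrongDual ℝ (E i)) 2 := ∑ i ∈ s, lp.single 2 i (‖x i‖ • φ i) with hg
    have hg2 : ‖g‖ ^ 2 ≤ ∑ i ∈ s, ‖x i‖ ^ 2 := by
      rw [hg, norm_sq_sum_single]
      apply Finset.sum_le_sum
      intro i _
      rw [norm_smul, norm_norm]
      have : ‖x i‖ * ‖φ i‖ ≤ ‖x i‖ * 1 := mul_le_mul_of_nonneg_left (hφ1 i) (norm_nonneg _)
      rw [mul_one] at this
      exact pow_le_pow_left₀ (by positivity) this 2
    have hΦ : Φ (pair g) = ∑ i ∈ s, ‖x i‖ ^ 2 := by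
      rw [hg, map_sum, map_sum]
      apply Finset.sum_congr rfl
      intro i _
      rw [← hx, _root_.smul_apply, hφ2, smul_eq_mul, sq]
      rfl
    apply le_sq_of_le_mul (n := ‖g‖) (Finset.sum_nonneg fun i _ => by positivity) _ hg2
    rw [← hΦ]
    calc Φ (pair g) ≤ |Φ (pair g)| := le_abs_self _
      _ ≤ ‖Φ‖ * ‖pair g‖ := Φ.le_opNorm _
      _ ≤ ‖Φ‖ * ‖g‖ := mul_le_mul_of_nonneg_left (norm_pair_apply_le g) (by positivity)
  refine ⟨⟨x, hmem⟩, ?_⟩
  ext ψ
  obtain ⟨g, rfl⟩ := exists_pair_eq h ψ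
  rw [NormedSpace.dual_def, pair_apply]
  have hs := (lp.hasSum_single (p := 2) (by simp) g).mapL (Φ.comp pair)
  have hfun : (fun i => g i (x i)) = fun b => (Φ.comp pair) (lp.single 2 b (g b)) := by
    funext i
    rw [hx]
    rfl
  have hs' : HasSum (fun i => g i (x i)) (Φ (pair g)) := by
    rw [hfun]
    exact hs
  exact hs'.tsum_eq

end sum

end Vale.Agent.Lib.P069
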