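import Vale.Agent.Lib.P069.AMUC
import Vale.Agent.Lib.P069.ReflSum
import Vale.Agent.Lib.P069.NotAUC
import Vale.Agent.Lib.P069.InfDim

/-!
# P069 task T7: assembly
-/

namespace Vale.Agent.Lib.P069

theorem X_refl : IsRefl X :=
  reflexive_lp_two fun n => Reflexive.of_equiv (Xn.toHL n).symm (reflexive_of_hilbert H)

theorem X_infinite_dim : ¬ FiniteDimensional ℝ X :=
  not_finiteDimensional_of_not_AUC X_not_AUC

end Vale.Agent.Lib.P069
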