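import Mathlib

/-!
# Reflexivity of `l2`-sums

`Refl X` says that the canonical embedding of `X` into its bidual is onto.  We prove that the
`l2`-sum of reflexive spaces is reflexive, that reflexivity passes through continuous linear
equivalences and that real Hilbert spaces are reflexive.
-/

namespace Vale.Agent.Lib.P069

open scoped ENNReal
open Filter Topology

set_option linter.unusedSectionVars false

/-- reflexivity: the canonical embedding into the bidual is onto. -/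
def Refl (X : Type*) [NormedAddCommGroup X] [NormedSpace ℝ X] : Prop :=
  Function.Surjective (NormedSpace.inclusionInDoubleDual ℝ X)

theorem le_sq_of_le_mul_sqrt {A C : ℝ} (hA : 0 ≤ A) (hC : 0 ≤ C) (h : A ≤ C * Real.sqrt A) :
    A ≤ C ^ 2 := by
  rcases hA.eq_or_lt with h0 | hpos
  · rw [← h0]; positivity
  · have hs : 0 < Real.sqrt A := Real.sqrt_pos.2 hpos
    have h1 : Real.sqrt A * Real.sqrt A = A := Real.mul_self_sqrt hA
    have h2 : Real.sqrt A ≤ C := by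
      by_contra hcon
      have hcon' := not_le.1 hcon
      nlinarith
    nlinarith

/-- in a reflexive space every functional attains its norm on the unit ball -/
theorem Refl.exists_norming {X : Type*} [NormedAddCommGroup X] [NormedSpace ℝ X] (h : Refl X)
    (φ : StrongDual ℝ X) : ∃ w : X, ‖w‖ ≤ 1 ∧ φ w = ‖φ‖ := by
  obtain ⟨G, hG1, hG2⟩ := exists_dual_vector'' ℝ φ
  obtain ⟨w, hw⟩ := h G
  refine ⟨w, ?_, ?_⟩
  · have := (NormedSpace.inclusionInDoubleDualLi (E := X) ℝ).norm_map w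
    have h2 : (NormedSpace.inclusionInDoubleDualLi (E := X) ℝ) w = G := hw
    rw [h2] at this
    rw [← this]; exact hG1
  · have : G φ = φ w := by rw [← hw]; rfl
    rw [← this, hG2]
    rfl

section Sum

variable {ι : Type*} {E : ι → Type*} [∀ i, NormedAddCommGroup (E i)] [∀ i, NormedSpace ℝ (E i)]

theorem two_toReal_pos : 0 < (2 : ℝ≥0∞).toReal := by norm_num

theorem sum_sq_le_norm_sq (f : lp E 2) (s : Finset ι) : ∑ i ∈ s, ‖f i‖ ^ 2 ≤ ‖f‖ ^ 2 := by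
  have := lp.sum_rpow_le_norm_rpow two_toReal_pos f s
  simpa using this

theorem norm_sum_single_sq [DecidableEq ι] (v : ∀ i, E i) (s : Finset ι) :
    ‖∑ i ∈ s, lp.single 2 i (v i)‖ ^ 2 = ∑ i ∈ s, ‖v i‖ ^ 2 := by
  have := lp.norm_sum_single (p := 2) two_toReal_pos v s
  simpa using this

/-- the functional `f ↦ φ (f i)` -/
noncomputable def co (i : ι) (φ : StrongDual ℝ (E i)) : StrongDual ℝ (lp E 2) :=
  φ.comp (lp.evalCLM ℝ E 2 i)

theorem co_apply (i : ι) (φ : StrongDual ℝ (E i)) (f : lp E 2) : co i φ f = φ (f i) := rfl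

/-- `co i` as a continuous linear map -/
noncomputable def coL (i : ι) : StrongDual ℝ (E i) →L[ℝ] StrongDual ℝ (lp E 2) :=
  (ContinuousLinearMap.compL ℝ (lp E 2) (E i) ℝ).flip (lp.evalCLM ℝ E 2 i)

theorem coL_apply (i : ι) (φ : StrongDual ℝ (E i)) : coL i φ = co i φ := rfl

theorem abs_sum_le (φ : ∀ i, StrongDual ℝ (E i)) (s : Finset ι) (f : lp E 2) :
    |∑ i ∈ s, φ i (f i)| ≤ Real.sqrt (∑ i ∈ s, ‖φ i‖ ^ 2) * ‖f‖ := by
  calc |∑ i ∈ s, φ i (f i)| ≤ ∑ i ∈ s, |φ i (f i)| := Finset.abs_sum_le_sum_abs _ _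
    _ ≤ ∑ i ∈ s, ‖φ i‖ * ‖f i‖ := Finset.sum_le_sum fun i _ => (φ i).le_opNorm (f i)
    _ ≤ Real.sqrt (∑ i ∈ s, ‖φ i‖ ^ 2) * Real.sqrt (∑ i ∈ s, ‖f i‖ ^ 2) :=
        Real.sum_mul_le_sqrt_mul_sqrt _ _ _
    _ ≤ Real.sqrt (∑ i ∈ s, ‖φ i‖ ^ 2) * ‖f‖ := by
        apply mul_le_mul_of_nonneg_left _ (Real.sqrt_nonneg _)
        rw [Real.sqrt_le_left (norm_nonneg _)]
        exact sum_sq_le_norm_sq f s

theorem norm_sum_co_le (φ : ∀ i, StrongDual ℝ (E i)) (s : Finset ι) :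
    ‖∑ i ∈ s, co i (φ i)‖ ≤ Real.sqrt (∑ i ∈ s, ‖φ i‖ ^ 2) := by
  refine ContinuousLinearMap.opNorm_le_bound _ (Real.sqrt_nonneg _) fun f => ?_
  rw [_root_.sum_apply, Real.norm_eq_abs]
  exact abs_sum_le φ s f

/-- coordinates of a bidual element are square summable -/
theorem sum_sq_le_of_bidual (Φ : StrongDual ℝ (StrongDual ℝ (lp E 2))) (x : ∀ i, E i)
    (hx : ∀ i (φ : StrongDual ℝ (E i)), Φ (co i φ) = φ (x i)) (s : Finset ι) :
    ∑ i ∈ s, ‖x i‖ ^ 2 ≤ ‖Φ‖ ^ 2 := by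
  choose g hg1 hg2 using fun i => exists_dual_vector'' ℝ (x i)
  set φ : ∀ i, StrongDual ℝ (E i) := fun i => ‖x i‖ • g i with hφ
  have hφn : ∀ i, ‖φ i‖ ^ 2 ≤ ‖x i‖ ^ 2 := by
    intro i
    have : ‖φ i‖ ≤ ‖x i‖ := by
      rw [hφ]
      simp only [norm_smul, norm_norm]
      calc ‖x i‖ * ‖g i‖ ≤ ‖x i‖ * 1 := by gcongr; exact hg1 i
        _ = ‖x i‖ := mul_one _
    gcongr
  have h1 : Φ (∑ i ∈ s, co i (φ i)) = ∑ i ∈ s, ‖x i‖ ^ 2 := by
    rw [map_sum]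
    refine Finset.sum_congr rfl fun i _ => ?_
    rw [hx, hφ]
    simp only [_root_.smul_apply, smul_eq_mul, hg2]
    simp [sq]
  have h2 : ∑ i ∈ s, ‖x i‖ ^ 2 ≤ ‖Φ‖ * Real.sqrt (∑ i ∈ s, ‖x i‖ ^ 2) := by
    calc ∑ i ∈ s, ‖x i‖ ^ 2 = Φ (∑ i ∈ s, co i (φ i)) := h1.symm
      _ ≤ ‖Φ (∑ i ∈ s, co i (φ i))‖ := le_abs_self _
      _ ≤ ‖Φ‖ * ‖∑ i ∈ s, co i (φ i)‖ := Φ.le_opNorm _
      _ ≤ ‖Φ‖ * Real.sqrt (∑ i ∈ s, ‖x i‖ ^ 2) := by
          apply mul_le_mul_of_nonneg_left _ Φ.opNorm_nonneg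
          exact (norm_sum_co_le φ s).trans (Real.sqrt_le_sqrt (Finset.sum_le_sum fun i _ => hφn i))
  exact le_sq_of_le_mul_sqrt (Finset.sum_nonneg fun i _ => by positivity) Φ.opNorm_nonneg h2

variable [DecidableEq ι]

/-- the `i`-th coordinate of a functional on the sum -/
noncomputable def cd (ψ : StrongDual ℝ (lp E 2)) (i : ι) : StrongDual ℝ (E i) :=
  ψ.comp (lp.singleContinuousLinearMap ℝ E 2 i)

theorem cd_apply (ψ : StrongDual ℝ (lp E 2)) (i : ι) (v : E i) :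
    cd ψ i v = ψ (lp.single 2 i v) := rfl

theorem hasSum_cd (ψ : StrongDual ℝ (lp E 2)) (f : lp E 2) :
    HasSum (fun i => cd ψ i (f i)) (ψ f) :=
  (lp.hasSum_single (by norm_num) f).mapL ψ

/-- coordinates of a functional are square summable -/
theorem sum_sq_cd_le (hE : ∀ i, Refl (E i)) (ψ : StrongDual ℝ (lp E 2)) (s : Finset ι) :
    ∑ i ∈ s, ‖cd ψ i‖ ^ 2 ≤ ‖ψ‖ ^ 2 := by
  choose w hw1 hw2 using fun i => (hE i).exists_norming (cd ψ i)
  set v : ∀ i, E i := fun i => ‖cd ψ i‖ • w i with hv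
  have hvn : ∀ i, ‖v i‖ ^ 2 ≤ ‖cd ψ i‖ ^ 2 := by
    intro i
    have : ‖v i‖ ≤ ‖cd ψ i‖ := by
      rw [hv]
      simp only [norm_smul, norm_norm]
      calc ‖cd ψ i‖ * ‖w i‖ ≤ ‖cd ψ i‖ * 1 := by gcongr; exact hw1 i
        _ = ‖cd ψ i‖ := mul_one _
    gcongr
  have h1 : ψ (∑ i ∈ s, lp.single 2 i (v i)) = ∑ i ∈ s, ‖cd ψ i‖ ^ 2 := by
    rw [map_sum]
    refine Finset.sum_congr rfl fun i _ => ?_
    rw [← cd_apply, hv]
    simp only [map_smul, smul_eq_mul, hw2]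
    ring
  have h3 : ‖∑ i ∈ s, lp.single 2 i (v i)‖ ≤ Real.sqrt (∑ i ∈ s, ‖cd ψ i‖ ^ 2) := by
    apply Real.le_sqrt_of_sq_le
    rw [norm_sum_single_sq]
    exact Finset.sum_le_sum fun i _ => hvn i
  have h2 : ∑ i ∈ s, ‖cd ψ i‖ ^ 2 ≤ ‖ψ‖ * Real.sqrt (∑ i ∈ s, ‖cd ψ i‖ ^ 2) := by
    calc ∑ i ∈ s, ‖cd ψ i‖ ^ 2 = ψ (∑ i ∈ s, lp.single 2 i (v i)) := h1.symm
      _ ≤ ‖ψ (∑ i ∈ s, lp.single 2 i (v i))‖ := le_abs_self _
      _ ≤ ‖ψ‖ * ‖∑ i ∈ s, lp.single 2 i (v i)‖ := ψ.le_opNorm _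
      _ ≤ ‖ψ‖ * Real.sqrt (∑ i ∈ s, ‖cd ψ i‖ ^ 2) :=
          mul_le_mul_of_nonneg_left h3 (norm_nonneg _)
  exact le_sq_of_le_mul_sqrt (Finset.sum_nonneg fun i _ => by positivity) (norm_nonneg _) h2

/-- finite coordinate sums approximate a functional in norm -/
theorem exists_finset_approx (hE : ∀ i, Refl (E i)) (ψ : StrongDual ℝ (lp E 2)) {ε : ℝ}
    (hε : 0 < ε) : ∃ s : Finset ι, ‖ψ - ∑ i ∈ s, co i (cd ψ i)‖ ≤ ε := by
  have hsum : Summable fun i => ‖cd ψ i‖ ^ 2 :=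
    summable_of_sum_le (fun i => by positivity) (sum_sq_cd_le hE ψ)
  set A : ℝ := ∑' i, ‖cd ψ i‖ ^ 2 with hA
  have hev : ∀ᶠ s : Finset ι in atTop, A - ε ^ 2 < ∑ i ∈ s, ‖cd ψ i‖ ^ 2 :=
    hsum.hasSum.eventually (lt_mem_nhds (by have : 0 < ε ^ 2 := by positivity
                                            linarith))
  obtain ⟨s, hs⟩ := hev.exists
  refine ⟨s, ContinuousLinearMap.opNorm_le_bound _ hε.le fun f => ?_⟩
  have hlim : Tendsto (fun t : Finset ι => ∑ i ∈ t, cd ψ i (f i) - ∑ i ∈ s, cd ψ i (f i)) atTop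
      (𝓝 (ψ f - ∑ i ∈ s, cd ψ i (f i))) := (hasSum_cd ψ f).sub_const _
  have hval : (ψ - ∑ i ∈ s, co i (cd ψ i)) f = ψ f - ∑ i ∈ s, cd ψ i (f i) := by
    rw [_root_.sub_apply, _root_.sum_apply]
    rfl
  rw [hval, Real.norm_eq_abs]
  refine le_of_tendsto hlim.abs ?_
  filter_upwards [eventually_ge_atTop s] with t hst
  have hsplit : ∑ i ∈ t, cd ψ i (f i) - ∑ i ∈ s, cd ψ i (f i) = ∑ i ∈ t \ s, cd ψ i (f i) := by
    rw [← Finset.sum_sdiff hst]; ring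
  rw [hsplit]
  refine (abs_sum_le (cd ψ) (t \ s) f).trans ?_
  apply mul_le_mul_of_nonneg_right _ (norm_nonneg _)
  rw [Real.sqrt_le_left hε.le]
  have h1 : ∑ i ∈ t \ s, ‖cd ψ i‖ ^ 2 + ∑ i ∈ s, ‖cd ψ i‖ ^ 2 = ∑ i ∈ t, ‖cd ψ i‖ ^ 2 :=
    Finset.sum_sdiff hst
  have h2 : ∑ i ∈ t, ‖cd ψ i‖ ^ 2 ≤ A := hsum.sum_le_tsum t (fun i _ => by positivity)
  linarith

end Sum

/-- **The `l2`-sum of reflexive spaces is reflexive.** -/
theorem lp_two_reflexive {ι : Type*} {E : ι → Type*} [∀ i, NormedAddCommGroup (E i)]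
    [∀ i, NormedSpace ℝ (E i)]
    (h : ∀ i, Function.Surjective (NormedSpace.inclusionInDoubleDual ℝ (E i))) :
    Function.Surjective (NormedSpace.inclusionInDoubleDual ℝ (lp E 2)) := by
  classical
  intro Φ
  have hx : ∀ i, ∃ x : E i, ∀ φ : StrongDual ℝ (E i), Φ (co i φ) = φ x := by
    intro i
    obtain ⟨x, hx⟩ := h i (Φ.comp (coL i))
    refine ⟨x, fun φ => ?_⟩
    have := congrArg (fun G => G φ) hx
    simp only [NormedSpace.dual_def] at this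
    rw [this]
    rfl
  choose x hx using hx
  have hmem : Memℓp x 2 := by
    refine memℓp_gen' (C := ‖Φ‖ ^ 2) fun s => ?_
    have := sum_sq_le_of_bidual Φ x hx s
    simpa using this
  set X : lp E 2 := ⟨x, hmem⟩ with hX
  refine ⟨X, ?_⟩
  ext ψ
  rw [NormedSpace.dual_def]
  by_contra hne
  have hd : 0 < |ψ X - Φ ψ| := abs_pos.2 (sub_ne_zero.2 hne)
  set M : ℝ := ‖Φ‖ + ‖X‖ + 1 with hM
  have hMpos : 0 < M := by positivity
  obtain ⟨s, hs⟩ := exists_finset_approx h ψ (ε := |ψ X - Φ ψ| / (2 * M)) (by positivity)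
  set ψs : StrongDual ℝ (lp E 2) := ∑ i ∈ s, co i (cd ψ i) with hψs
  have h1 : Φ ψs = ψs X := by
    rw [hψs, map_sum, _root_.sum_apply]
    refine Finset.sum_congr rfl fun i _ => ?_
    rw [hx, co_apply]
  have h2 : ψ X - Φ ψ = (ψ - ψs) X - Φ (ψ - ψs) := by
    rw [map_sub, _root_.sub_apply, h1]; ring
  have h3 : |ψ X - Φ ψ| ≤ M * ‖ψ - ψs‖ := by
    rw [h2]
    calc |(ψ - ψs) X - Φ (ψ - ψs)| ≤ |(ψ - ψs) X| + |Φ (ψ - ψs)| := abs_sub _ _
      _ ≤ ‖ψ - ψs‖ * ‖X‖ + ‖Φ‖ * ‖ψ - ψs‖ :=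
          add_le_add ((ψ - ψs).le_opNorm X) (Φ.le_opNorm _)
      _ ≤ M * ‖ψ - ψs‖ := by
          rw [hM]; nlinarith [norm_nonneg (ψ - ψs)]
  have h4 : M * ‖ψ - ψs‖ ≤ |ψ X - Φ ψ| / 2 := by
    calc M * ‖ψ - ψs‖ ≤ M * (|ψ X - Φ ψ| / (2 * M)) := mul_le_mul_of_nonneg_left hs hMpos.le
      _ = |ψ X - Φ ψ| / 2 := by field_simp
  linarith

/-- reflexivity passes through continuous linear equivalences -/
theorem Refl.of_equiv {X Y : Type*} [NormedAddCommGroup X] [NormedSpace ℝ X]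
    [NormedAddCommGroup Y] [NormedSpace ℝ Y] (e : X ≃L[ℝ] Y) (h : Refl X) : Refl Y := by
  intro G
  set pre : StrongDual ℝ X →L[ℝ] StrongDual ℝ Y :=
    (ContinuousLinearMap.compL ℝ Y X ℝ).flip (e.symm : Y →L[ℝ] X) with hpre
  obtain ⟨x, hx⟩ := h (G.comp pre)
  refine ⟨e x, ?_⟩
  ext ψ
  rw [NormedSpace.dual_def]
  have h1 := congrArg (fun F => F (ψ.comp (e : X →L[ℝ] Y))) hx
  simp only [NormedSpace.dual_def] at h1
  have h2 : pre (ψ.comp (e : X →L[ℝ] Y)) = ψ := by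
    ext y
    simp [hpre]
  have h3 : (G.comp pre) (ψ.comp (e : X →L[ℝ] Y)) = G ψ := by
    rw [ContinuousLinearMap.comp_apply, h2]
  rw [← h3, ← h1]
  rfl

/-- real Hilbert spaces are reflexive -/
theorem refl_hilbert (H : Type*) [NormedAddCommGroup H] [InnerProductSpace ℝ H] [CompleteSpace H] :
    Refl H := by
  intro G
  set L : StrongDual ℝ H := LinearMap.mkContinuous
    { toFun := fun v => G (InnerProductSpace.toDual ℝ H v)
      map_add' := fun v w => by simp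
      map_smul' := fun c v => by simp } ‖G‖
    (fun v => by
      have := G.le_opNorm (InnerProductSpace.toDual ℝ H v)
      simpa using this) with hL
  refine ⟨(InnerProductSpace.toDual ℝ H).symm L, ?_⟩
  ext φ
  rw [NormedSpace.dual_def]
  obtain ⟨v, rfl⟩ := (InnerProductSpace.toDual ℝ H).surjective φ
  rw [InnerProductSpace.toDual_apply_apply, real_inner_comm,
    InnerProductSpace.toDual_symm_apply]
  rfl

end Vale.Agent.Lib.P069
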