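import Mathlib

/-!
# P069: generic reflexivity lemmas

* `hilbert_reflexive`: a real Hilbert space is reflexive;
* `reflexive_of_equiv`: reflexivity passes along a continuous linear equivalence;
* `lp_two_dual_surj`: every continuous functional on an `ℓ²`-sum is given by an `ℓ²`-family of
  functionals;
* `lp_two_reflexive`: an `ℓ²`-sum of reflexive spaces is reflexive.

Reflexive means that `NormedSpace.inclusionInDoubleDual` is surjective.
-/

namespace Vale.Agent.Lib.P069

open scoped ENNReal NNReal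

section Basic

/-- A real Hilbert space is reflexive. -/
theorem hilbert_reflexive (H : Type*) [NormedAddCommGroup H] [InnerProductSpace ℝ H]
    [CompleteSpace H] : Function.Surjective (NormedSpace.inclusionInDoubleDual ℝ H) := by
  intro Φ
  -- `Φ ∘ toDual` is a functional on `H`
  set D := InnerProductSpace.toDual ℝ H with hD
  set g : StrongDual ℝ H := LinearMap.mkContinuous
    { toFun := fun w => Φ (D w)
      map_add' := fun a b => by rw [map_add, map_add]
      map_smul' := fun c a => by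
        rw [LinearIsometryEquiv.map_smulₛₗ]
        simp } ‖Φ‖ (fun w => by
        have := Φ.le_opNorm (D w)
        rwa [LinearIsometryEquiv.norm_map] at this) with hg
  refine ⟨D.symm g, ?_⟩
  ext φ
  rw [NormedSpace.dual_def]
  obtain ⟨w, rfl⟩ := D.surjective φ
  have h1 : D w (D.symm g) = inner ℝ w (D.symm g) := InnerProductSpace.toDual_apply_apply
  have h2 : inner ℝ (D.symm g) w = g w := InnerProductSpace.toDual_symm_apply
  rw [h1, real_inner_comm, h2]
  rfl

/-- Reflexivity passes along a continuous linear equivalence. -/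
theorem reflexive_of_equiv {X Y : Type*} [NormedAddCommGroup X] [NormedSpace ℝ X]
    [NormedAddCommGroup Y] [NormedSpace ℝ Y] (e : X ≃L[ℝ] Y)
    (hX : Function.Surjective (NormedSpace.inclusionInDoubleDual ℝ X)) :
    Function.Surjective (NormedSpace.inclusionInDoubleDual ℝ Y) := by
  intro Φ
  -- pull back `Φ` to `X**`
  set pre : StrongDual ℝ X →L[ℝ] StrongDual ℝ Y :=
    ContinuousLinearMap.precomp ℝ (e.symm : Y →L[ℝ] X) with hpre
  obtain ⟨x, hx⟩ := hX (Φ ∘L pre)
  refine ⟨e x, ?_⟩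
  ext ψ
  rw [NormedSpace.dual_def]
  have h1 := congrArg (fun F => F (ψ ∘L (e : X →L[ℝ] Y))) hx
  simp only [NormedSpace.dual_def, ContinuousLinearMap.comp_apply] at h1
  have h2 : pre (ψ ∘L (e : X →L[ℝ] Y)) = ψ := by
    ext y
    simp [hpre]
  rw [h2] at h1
  exact h1

end Basic

section Lp

variable {ι : Type*} {E : ι → Type*} [∀ i, NormedAddCommGroup (E i)] [∀ i, NormedSpace ℝ (E i)]

/-- The natural pairing of the `ℓ²`-sum of the duals with the `ℓ²`-sum. -/
noncomputable def pairing : lp (fun i => StrongDual ℝ (E i)) 2 →L[ℝ] StrongDual ℝ (lp E 2) :=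
  lp.dualPairing 2 2 (fun i => ContinuousLinearMap.id ℝ (StrongDual ℝ (E i))) (K := 1)
    (fun _ => ContinuousLinearMap.norm_id_le)

theorem pairing_apply (φ : lp (fun i => StrongDual ℝ (E i)) 2) (x : lp E 2) :
    pairing φ x = ∑' i, φ i (x i) := rfl

theorem pairing_single [DecidableEq ι] (φ : lp (fun i => StrongDual ℝ (E i)) 2) (i : ι)
    (a : E i) : pairing φ (lp.single 2 i a) = φ i a := by
  rw [pairing_apply, tsum_eq_single i]
  · rw [lp.single_apply_self]
  · intro j hj
    rw [lp.single_apply_ne _ _ _ hj, map_zero]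

/-- near-norming vector with constant `1/2` -/
theorem exists_half_norming {X : Type*} [NormedAddCommGroup X] [NormedSpace ℝ X]
    (φ : StrongDual ℝ X) : ∃ x : X, ‖x‖ ≤ 1 ∧ ‖φ‖ / 2 ≤ φ x := by
  by_cases h0 : ‖φ‖ = 0
  · exact ⟨0, by simp, by simp [h0]⟩
  have hpos : 0 < ‖φ‖ := lt_of_le_of_ne (norm_nonneg _) (Ne.symm h0)
  obtain ⟨x, hx1, hx2⟩ := φ.exists_lt_apply_of_lt_opNorm (r := ‖φ‖ / 2) (by linarith)
  rcases le_total 0 (φ x) with h | h
  · refine ⟨x, hx1.le, ?_⟩
    rw [Real.norm_eq_abs, abs_of_nonneg h] at hx2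
    exact hx2.le
  · refine ⟨-x, by rw [norm_neg]; exact hx1.le, ?_⟩
    rw [Real.norm_eq_abs, abs_of_nonpos h] at hx2
    rw [map_neg]
    exact hx2.le

/-- Every continuous functional on an `ℓ²`-sum is given by an `ℓ²`-family of functionals. -/
theorem lp_two_dual_surj (ψ : StrongDual ℝ (lp E 2)) :
    ∃ φ : lp (fun i => StrongDual ℝ (E i)) 2, pairing φ = ψ := by
  classical
  have h2 : (2 : ℝ≥0∞).toReal = 2 := by simp
  have hp : 0 < (2 : ℝ≥0∞).toReal := by rw [h2]; norm_num
  set φ : ∀ i, StrongDual ℝ (E i) := fun i => ψ ∘L lp.singleContinuousLinearMap ℝ E 2 i with hφ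
  have hφa : ∀ i (a : E i), φ i a = ψ (lp.single 2 i a) := fun i a => rfl
  choose x hx1 hx2 using fun i => exists_half_norming (φ i)
  have hbound : ∀ s : Finset ι, ∑ i ∈ s, ‖φ i‖ ^ (2 : ℝ≥0∞).toReal ≤ 4 * ‖ψ‖ ^ 2 := by
    intro s
    rw [h2]
    simp only [Real.rpow_two]
    set S : ℝ := ∑ i ∈ s, ‖φ i‖ ^ 2 with hS
    have hS0 : 0 ≤ S := Finset.sum_nonneg fun i _ => by positivity
    set z : lp E 2 := ∑ i ∈ s, lp.single 2 i (‖φ i‖ • x i) with hz
    have hzn : ‖z‖ ^ 2 ≤ S := by
      have h := lp.norm_sum_single (p := 2) hp (fun i => ‖φ i‖ • x i) s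
      rw [h2] at h
      simp only [Real.rpow_two] at h
      rw [hz, h]
      apply Finset.sum_le_sum
      intro i _
      rw [norm_smul, norm_norm, mul_pow]
      have h1 : ‖x i‖ ^ 2 ≤ 1 := by
        have := hx1 i
        have h0 := norm_nonneg (x i)
        nlinarith
      nlinarith [sq_nonneg ‖φ i‖]
    have hψz : S / 2 ≤ ψ z := by
      rw [hz, map_sum, hS, Finset.sum_div]
      apply Finset.sum_le_sum
      intro i _
      rw [← hφa, map_smul, smul_eq_mul]
      have := hx2 i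
      nlinarith [norm_nonneg (φ i)]
    have hle : ψ z ≤ ‖ψ‖ * ‖z‖ := (le_abs_self _).trans (ψ.le_opNorm z)
    have h3 : S / 2 ≤ ‖ψ‖ * ‖z‖ := hψz.trans hle
    have h4 : (S / 2) ^ 2 ≤ ‖ψ‖ ^ 2 * S := by
      calc (S / 2) ^ 2 ≤ (‖ψ‖ * ‖z‖) ^ 2 := by gcongr
        _ = ‖ψ‖ ^ 2 * ‖z‖ ^ 2 := by ring
        _ ≤ ‖ψ‖ ^ 2 * S := by gcongr
    by_cases hS1 : S = 0
    · rw [hS1]; positivity
    · have hSpos : 0 < S := lt_of_le_of_ne hS0 (Ne.symm hS1)
      have : S * (S / 4) ≤ S * ‖ψ‖ ^ 2 := by nlinarith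
      have := le_of_mul_le_mul_left this hSpos
      linarith
  have hmem : Memℓp φ 2 := memℓp_gen' hbound
  refine ⟨⟨φ, hmem⟩, ?_⟩
  apply lp.ext_continuousLinearMap (by simp)
  intro i
  ext a
  simp only [ContinuousLinearMap.comp_apply, lp.singleContinuousLinearMap_apply]
  rw [pairing_single]
  rfl

/-- An `ℓ²`-sum of reflexive spaces is reflexive. -/
theorem lp_two_reflexive
    (hE : ∀ i, Function.Surjective (NormedSpace.inclusionInDoubleDual ℝ (E i))) :
    Function.Surjective (NormedSpace.inclusionInDoubleDual ℝ (lp E 2)) := by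
  classical
  intro Φ
  obtain ⟨Ξ, hΞ⟩ := lp_two_dual_surj (E := fun i => StrongDual ℝ (E i)) (Φ ∘L pairing)
  choose x hx using fun i => hE i (Ξ i)
  have hnorm : ∀ i, ‖x i‖ = ‖Ξ i‖ := by
    intro i
    rw [← hx i]
    exact ((NormedSpace.inclusionInDoubleDualLi ℝ (E := E i)).norm_map (x i)).symm
  have hmem : Memℓp x 2 := by
    have h := (lp.memℓp Ξ)
    rw [← memℓp_norm_iff] at h ⊢
    simpa only [hnorm] using h
  refine ⟨⟨x, hmem⟩, ?_⟩
  ext ψ
  rw [NormedSpace.dual_def]
  obtain ⟨φ, rfl⟩ := lp_two_dual_surj ψ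
  have h1 := congrArg (fun F => F φ) hΞ
  simp only [ContinuousLinearMap.comp_apply] at h1
  rw [← h1, pairing_apply, pairing_apply]
  apply tsum_congr
  intro i
  show φ i (x i) = Ξ i (φ i)
  rw [← hx i, NormedSpace.dual_def]

end Lp

end Vale.Agent.Lib.P069
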