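import Vale.Agent.Lib.P069.Defs

/-!
# P069: the spaces `Xn n = (H, N n)` and `X`, their l2 sum
-/

namespace Vale.Agent.Lib.P069

open scoped ENNReal

/-- `H` with the norm `N n`. -/
def Xn (_n : ℕ) : Type := H

namespace Xn

variable {n : ℕ}

noncomputable instance : AddCommGroup (Xn n) := inferInstanceAs (AddCommGroup H)
noncomputable instance : Module ℝ (Xn n) := inferInstanceAs (Module ℝ H)

/-- The identity as a linear equivalence. -/
noncomputable def toH (n : ℕ) : Xn n ≃ₗ[ℝ] H := LinearEquiv.refl ℝ H

noncomputable instance : NormedAddCommGroup (Xn n) :=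
  AddGroupNorm.toNormedAddCommGroup
    { toFun := fun x => N n (toH n x)
      map_zero' := by rw [map_zero]; exact N_zero n
      add_le' := fun x y => by rw [map_add]; exact N_add_le n _ _
      neg' := fun x => by rw [map_neg]; exact N_neg n _
      eq_zero_of_map_eq_zero' := fun x hx => by
        have := N_eq_zero hx
        exact (toH n).map_eq_zero_iff.mp this }

theorem norm_def (x : Xn n) : ‖x‖ = N n (toH n x) := rfl

noncomputable instance : NormedSpace ℝ (Xn n) where
  norm_smul_le c x := by
    rw [norm_def, norm_def, map_smul, N_smul, Real.norm_eq_abs]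

/-- The identity as a continuous linear equivalence. -/
noncomputable def toHL (n : ℕ) : Xn n ≃L[ℝ] H :=
  (toH n).toContinuousLinearEquivOfBounds ((n : ℝ) + 1) 1
    (fun x => by rw [norm_def]; exact norm_le_N n _)
    (fun x => by
      rw [norm_def, one_mul, LinearEquiv.apply_symm_apply]; exact N_le_norm n x)

@[simp] theorem toHL_apply (x : Xn n) : toHL n x = toH n x := rfl
@[simp] theorem toHL_symm_apply (x : H) : (toHL n).symm x = (toH n).symm x := rfl

theorem norm_symm (x : H) : ‖(toH n).symm x‖ = N n x := by
  rw [norm_def, LinearEquiv.apply_symm_apply]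

instance : CompleteSpace (Xn n) :=
  (completeSpace_congr (e := (toHL n).toEquiv) (toHL n).isUniformEmbedding).mpr inferInstance

end Xn

/-- The counterexample space. -/
abbrev X : Type := lp (fun n => Xn n) 2

theorem X_hasSum_norm_sq (x : X) : HasSum (fun n => ‖x n‖ ^ 2) (‖x‖ ^ 2) := by
  have := lp.hasSum_norm (p := 2) (by norm_num) x
  simpa using this

/-- The coordinate functional `x ↦ x n s`. -/
noncomputable def coord (n : ℕ) (s : List ℕ) : X →L[ℝ] ℝ :=
  (lp.evalCLM ℝ (fun _ : List ℕ => ℝ) 2 s).comp
    ((Xn.toHL n : Xn n →L[ℝ] H).comp (lp.evalCLM ℝ (fun n => Xn n) 2 n))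

theorem coord_apply (n : ℕ) (s : List ℕ) (x : X) : coord n s x = Xn.toH n (x n) s := rfl

end Vale.Agent.Lib.P069
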