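import Vale.Agent.Lib.P069.Restr

/-!
# P069 task T2b: the sign adapted splitting of a test functional

Paper proof.  Put `h' = restr Aᶜ h`, `H' = psum h'` (so `|H' r| ≤ 2` for `r.length ≤ n` and
`H' = 0` on `A`, see `Restr.lean`).  Let `sg r` be the proposition `0 ≤ psum f0 r`.  As `f0 = 0`
off `A`, `sg (k :: p) ↔ sg p` whenever `k :: p ∉ A`.  Define
`GA r = if sg r then min (H' r) 0 else max (H' r) 0`, `GB r = H' r - GA r`,
`gA [] = 0`, `gA (k :: p) = GA (k :: p) - GA p`, same for `gB`.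
Then `psum gA = GA` (telescoping, `GA [] = 0`), `|gA s| ≤ |h' s|` (for `s = k :: p ∉ A` the same
1-Lipschitz truncation is used at `k :: p` and `p` and `H' (k :: p) - H' p = h' (k :: p)`; for
`s ∈ A` both `GA` values vanish), so `exists_dominated` gives elements of `H` of norm
`≤ ‖h'‖ ≤ ‖h‖ ≤ 1`; `gA + gB = h'`.
-/

namespace Vale.Agent.Lib.P069

theorem split {n : ℕ} {A : Set (List ℕ)} (hA : SufClosed A) (f0 h : H)
    (hf0 : ∀ s, s ∉ A → f0 s = 0) (hh : h ∈ D n) :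
    ∃ gA gB : H, (∀ s ∈ A, gA s = 0) ∧ (∀ s ∈ A, gB s = 0) ∧
      (∀ s, s ∉ A → gA s + gB s = h s) ∧ ‖gA‖ ≤ 1 ∧ ‖gB‖ ≤ 1 ∧
      ∀ r : List ℕ, r.length ≤ n →
        (0 ≤ psum f0 r →
          (-2 ≤ psum gA r ∧ psum gA r ≤ 0 ∧ 0 ≤ psum gB r ∧ psum gB r ≤ 2)) ∧
        (psum f0 r < 0 →
          (0 ≤ psum gA r ∧ psum gA r ≤ 2 ∧ -2 ≤ psum gB r ∧ psum gB r ≤ 0)) := by
  obtain ⟨gA, gB, hdom, hold, hnew, hsign⟩ := trunc_split n A hA.1 hA.2 f0 h hf0 hh.2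
  obtain ⟨gA', hA1, hA2⟩ := exists_dominated gA h (fun s => (hdom s).1)
  obtain ⟨gB', hB1, hB2⟩ := exists_dominated gB h (fun s => (hdom s).2)
  have eA : ⇑gA' = gA := funext hA1
  have eB : ⇑gB' = gB := funext hB1
  refine ⟨gA', gB', ?_, ?_, ?_, hA2.trans hh.1, hB2.trans hh.1, ?_⟩
  · intro s hs
    rw [hA1]
    exact (hold s hs).1
  · intro s hs
    rw [hB1]
    exact (hold s hs).2
  · intro s hs
    rw [hA1, hB1]
    exact hnew s hs
  · intro r hr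
    rw [eA, eB]
    exact hsign r hr

end Vale.Agent.Lib.P069
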