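import Vale.Agent.Lib.P069.CL
import Vale.Agent.Lib.P069.Cof

/-!
# P069 task T3c: the key inequality in the l2 sum

Sketch: `X_hasSum_norm_sq` for `x' + y`, `x' - y`, `x'`, `y`; combine with `HasSum.add`,
`HasSum.mul_left`, `HasSum.div_const` and compare termwise with `hasSum_le`.  Term `n ∈ S`: `CL n`
for `toH n (x' n)`, `toH n (y n)` (use `Xn.norm_def`, `lp.coeFn_add`, `map_add`).  Term `n ∉ S`:
`x' n = 0`, and `‖-z‖ = ‖z‖`.
-/

namespace Vale.Agent.Lib.P069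

theorem sum_CL {S : Finset ℕ} {A : Finset (List ℕ)} (hA : SufClosed (A : Set (List ℕ)))
    (x' y : X) (hS : ∀ n, n ∉ S → x' n = 0) (hx : ∀ n s, s ∉ A → Xn.toH n (x' n) s = 0)
    (hy : y ∈ Fsub S A) :
    2 * ‖x'‖ ^ 2 + ‖y‖ ^ 2 / 8 ≤ ‖x' + y‖ ^ 2 + ‖x' - y‖ ^ 2 := by
  rw [mem_Fsub] at hy
  have hl : HasSum (fun n => 2 * ‖x' n‖ ^ 2 + ‖y n‖ ^ 2 / 8) (2 * ‖x'‖ ^ 2 + ‖y‖ ^ 2 / 8) :=
    ((X_hasSum_norm_sq x').mul_left 2).add ((X_hasSum_norm_sq y).div_const 8)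
  have hr : HasSum (fun n => ‖(x' + y) n‖ ^ 2 + ‖(x' - y) n‖ ^ 2)
      (‖x' + y‖ ^ 2 + ‖x' - y‖ ^ 2) :=
    (X_hasSum_norm_sq (x' + y)).add (X_hasSum_norm_sq (x' - y))
  refine hasSum_le (fun n => ?_) hl hr
  by_cases hn : n ∈ S
  · have h := CL n hA (Xn.toH n (x' n)) (Xn.toH n (y n))
      (fun s hs => hx n s (by simpa using hs)) (fun s hs => hy n hn s (by simpa using hs))
    simp only [lp.coeFn_add, lp.coeFn_sub, Pi.add_apply, Pi.sub_apply, Xn.norm_def, map_add,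
      map_sub]
    exact h
  · have h0 := hS n hn
    simp only [lp.coeFn_add, lp.coeFn_sub, Pi.add_apply, Pi.sub_apply, h0, norm_zero, zero_add,
      zero_sub, norm_neg]
    nlinarith [sq_nonneg ‖y n‖]

end Vale.Agent.Lib.P069
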