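import Vale.Agent.Lib.P069.Space

/-!
# P069 task T5b: the bounded weakly null trees in `X`
-/

namespace Vale.Agent.Lib.P069

/-- The unit vector at the node `s`. -/
noncomputable def evec (s : List ℕ) : H := lp.single 2 s (1 : ℝ)

/-- `bvec r` is the sum of the unit vectors over the nonempty suffixes of `r`. -/
noncomputable def bvec : List ℕ → H
  | [] => 0
  | (k :: p) => evec (k :: p) + bvec p

theorem evec_apply (s t : List ℕ) : evec s t = if t = s then 1 else 0 := by
  unfold evec
  rw [lp.coeFn_single, Pi.single_apply]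

theorem inner_evec (f : H) (s : List ℕ) : inner ℝ f (evec s) = f s := by
  unfold evec
  rw [lp.inner_single_right]
  simp

theorem norm_evec (s : List ℕ) : ‖evec s‖ = 1 := by
  unfold evec
  rw [lp.norm_single (by norm_num)]
  simp

/-- Induction on `r`. -/
theorem inner_bvec (f : H) (r : List ℕ) : inner ℝ f (bvec r) = psum f r := by
  induction r with
  | nil => simp [bvec]
  | cons k p ih => rw [bvec, inner_add_right, inner_evec, ih, psum_cons]

theorem N_bvec_le {n : ℕ} {r : List ℕ} (hr : r.length ≤ n) : N n (bvec r) ≤ 1 := by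
  refine N_le fun f hf => ?_
  rw [inner_bvec]
  exact (le_abs_self _).trans (hf.2 r hr)

theorem psum_evec (s r : List ℕ) :
    psum (evec s) r = if s ≠ [] ∧ s <:+ r then 1 else 0 := by
  induction r with
  | nil =>
    rw [psum_nil]
    by_cases hs : s = []
    · simp [hs]
    · have : ¬ (s <:+ []) := by simpa using hs
      simp [this]
  | cons k p ih =>
    rw [psum_cons, ih, evec_apply]
    by_cases h1 : k :: p = s
    · subst h1
      have h2 : ¬ ((k :: p) <:+ p) := by
        intro h
        have := h.length_le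
        simp at this
      simp [h2]
    · have h3 : s <:+ (k :: p) ↔ s <:+ p := by
        rw [List.suffix_cons_iff]
        constructor
        · rintro (h | h)
          · exact absurd h.symm h1
          · exact h
        · exact Or.inr
      rw [if_neg h1, zero_add]
      simp only [h3]

/-- Sketch: by induction on `r`, `psum (evec s) r = if s ≠ [] ∧ s <:+ r then 1 else 0`
(`List.suffix_cons_iff`; if `s = k :: p` then `s` is not a suffix of `p` by length). -/
theorem evec_mem_D (n : ℕ) (s : List ℕ) : evec s ∈ D n := by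
  refine ⟨(norm_evec s).le, fun r _ => ?_⟩
  rw [psum_evec]
  split_ifs <;> simp

theorem N_evec (n : ℕ) (s : List ℕ) : N n (evec s) = 1 := by
  apply le_antisymm
  · rw [← norm_evec s]; exact N_le_norm n _
  · have := le_N (evec_mem_D n s) (evec s)
    rw [inner_evec, evec_apply, if_pos rfl] at this
    exact this

/-- The tree in the `n`-th summand of `X`. -/
noncomputable def ztree (n : ℕ) (r : List ℕ) : X := lp.single 2 n ((Xn.toH n).symm (bvec r))

theorem ztree_nil (n : ℕ) : ztree n [] = 0 := by
  unfold ztree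
  simp [bvec]

theorem norm_ztree_le {n : ℕ} {r : List ℕ} (hr : r.length ≤ n) : ‖ztree n r‖ ≤ 1 := by
  unfold ztree
  rw [lp.norm_single (by norm_num), Xn.norm_symm]
  exact N_bvec_le hr

theorem ztree_cons_sub (n k : ℕ) (p : List ℕ) :
    ztree n (k :: p) - ztree n p = lp.single 2 n ((Xn.toH n).symm (evec (k :: p))) := by
  unfold ztree
  rw [← lp.single_sub, ← map_sub, bvec, add_sub_cancel_right]

theorem norm_ztree_cons_sub (n k : ℕ) (p : List ℕ) : ‖ztree n (k :: p) - ztree n p‖ = 1 := by
  rw [ztree_cons_sub, lp.norm_single (by norm_num), Xn.norm_symm, N_evec]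

/-- Siblings are weakly null in `H`. -/
theorem evec_weakly_null (p : List ℕ) (ψ : H →L[ℝ] ℝ) :
    Filter.Tendsto (fun k => ψ (evec (k :: p))) Filter.atTop (nhds 0) := by
  set g : H := (InnerProductSpace.toDual ℝ H).symm ψ with hg
  have h1 : ∀ x, ψ x = inner ℝ g x := fun x => by
    rw [hg, InnerProductSpace.toDual_symm_apply]
  have h2 : ∀ k, ψ (evec (k :: p)) = g (k :: p) := fun k => by rw [h1, inner_evec]
  have hinj : Function.Injective (fun k : ℕ => k :: p) := fun a b h => by
    simpa using h
  have h3 : Summable (fun k : ℕ => g (k :: p) ^ 2) :=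
    (hasSum_norm_sq g).summable.comp_injective hinj
  have h4 := h3.tendsto_atTop_zero
  have h5 : Filter.Tendsto (fun k : ℕ => |g (k :: p)|) Filter.atTop (nhds 0) := by
    have := h4.sqrt
    simpa [Real.sqrt_sq_eq_abs] using this
  have h6 : Filter.Tendsto (fun k : ℕ => g (k :: p)) Filter.atTop (nhds 0) :=
    (tendsto_zero_iff_abs_tendsto_zero _).mpr h5
  exact h6.congr (fun k => (h2 k).symm)

/-- Sketch: `φ ∘ (lp.singleContinuousLinearMap ℝ _ 2 n) ∘ (Xn.toHL n).symm` is a continuous functional
on `H`, by Riesz (`InnerProductSpace.toDual ℝ H`) equal to `⟪g, ·⟫`; its value at `evec (k :: p)`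
is `g (k :: p)`; `hasSum_norm_sq g` composed with the injective map `k ↦ k :: p` is summable, so
`g (k :: p) ^ 2 → 0` (`Summable.tendsto_atTop_zero`), so `g (k :: p) → 0`. -/
theorem ztree_weakly_null (n : ℕ) (p : List ℕ) (φ : X →L[ℝ] ℝ) :
    Filter.Tendsto (fun k => φ (ztree n (k :: p) - ztree n p)) Filter.atTop (nhds 0) := by
  have h := evec_weakly_null p
    ((φ.comp (lp.singleContinuousLinearMap ℝ (fun n => Xn n) 2 n)).comp
      ((Xn.toHL n).symm : H →L[ℝ] Xn n))
  refine h.congr (fun k => ?_)
  rw [ztree_cons_sub]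
  rfl

end Vale.Agent.Lib.P069
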